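import Mathlib

/-! Characteristic function of the standard Gaussian product measure, real form. -/

namespace Vale.Agent.P157

open MeasureTheory ProbabilityTheory Complex

/-- The standard Gaussian product measure on `ι → ℝ`. -/
noncomputable abbrev stdG (ι : Type*) [Fintype ι] : Measure (ι → ℝ) :=
  Measure.pi (fun _ : ι => gaussianReal 0 1)

theorem integral_cexp_stdG {ι : Type*} [Fintype ι] (ξ : ι → ℝ) :
    ∫ g, cexp (((∑ i, g i * ξ i : ℝ) : ℂ) * I) ∂(stdG ι)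
      = cexp (-(((∑ i, ξ i ^ 2 : ℝ) : ℂ)) / 2) := by
  have h1 : ∀ g : ι → ℝ, cexp (((∑ i, g i * ξ i : ℝ) : ℂ) * I)
      = ∏ i, cexp (((ξ i : ℝ) : ℂ) * ((g i : ℝ) : ℂ) * I) := by
    intro g
    rw [← Complex.exp_sum]
    congr 1
    push_cast
    rw [Finset.sum_mul]
    refine Finset.sum_congr rfl (fun i _ => ?_)
    ring
  simp_rw [h1]
  rw [integral_fintype_prod_eq_prod (f := fun i x => cexp (((ξ i : ℝ) : ℂ) * ((x : ℝ) : ℂ) * I))]
  simp_rw [← charFun_apply_real, charFun_gaussianReal]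
  rw [← Complex.exp_sum]
  congr 1
  push_cast
  rw [neg_div, Finset.sum_div, ← Finset.sum_neg_distrib]
  refine Finset.sum_congr rfl (fun i _ => ?_)
  simp

theorem integral_cos_stdG {ι : Type*} [Fintype ι] (ξ : ι → ℝ) :
    ∫ g, Real.cos (∑ i, g i * ξ i) ∂(stdG ι) = Real.exp (-(∑ i, ξ i ^ 2) / 2) := by
  have h := integral_cexp_stdG ξ
  have hint : Integrable (fun g : ι → ℝ => cexp (((∑ i, g i * ξ i : ℝ) : ℂ) * I)) (stdG ι) := by
    refine Integrable.of_bound (C := 1) ?_ ?_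
    · apply Measurable.aestronglyMeasurable
      fun_prop
    · refine Filter.Eventually.of_forall (fun g => ?_)
      rw [Complex.norm_exp_ofReal_mul_I]
  have h2 := congrArg Complex.re h
  have h3 : (∫ g, cexp (((∑ i, g i * ξ i : ℝ) : ℂ) * I) ∂(stdG ι)).re
      = ∫ g, (cexp (((∑ i, g i * ξ i : ℝ) : ℂ) * I)).re ∂(stdG ι) := by
    exact (integral_re hint).symm
  rw [h3] at h2
  have h4 : ∀ g : ι → ℝ, (cexp (((∑ i, g i * ξ i : ℝ) : ℂ) * I)).re = Real.cos (∑ i, g i * ξ i) := by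
    intro g
    rw [Complex.exp_ofReal_mul_I_re]
  simp_rw [h4] at h2
  rw [h2]
  have : (-(((∑ i, ξ i ^ 2 : ℝ) : ℂ)) / 2) = (((-(∑ i, ξ i ^ 2) / 2 : ℝ)) : ℂ) := by
    push_cast; ring
  rw [this, Complex.exp_ofReal_re]

end Vale.Agent.P157
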