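import Mathlib
import Vale.Agent.P157.GaussCos

/-! Moment inequality: convexity in the covariance for positive definite mixtures of cosines. -/

namespace Vale.Agent.P157

open MeasureTheory ProbabilityTheory

theorem integrable_of_bdd {α : Type*} [MeasurableSpace α] {P : Measure α} [IsFiniteMeasure P]
    {f : α → ℝ} (hm : Measurable f) (C : ℝ) (hb : ∀ x, |f x| ≤ C) : Integrable f P :=
  Integrable.of_bound hm.aestronglyMeasurable C (Filter.Eventually.of_forall hb)

/-- The positive definite function attached to a finite measure. -/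
noncomputable def pdFun (μ : Measure ℝ) (t : ℝ) : ℝ := ∫ θ, Real.cos (θ * t) ∂μ

theorem measurable_pdFun (μ : Measure ℝ) [IsFiniteMeasure μ] : Measurable (pdFun μ) := by
  have h : StronglyMeasurable (Function.uncurry (fun t θ : ℝ => Real.cos (θ * t))) := by
    apply Measurable.stronglyMeasurable
    unfold Function.uncurry
    fun_prop
  exact (h.integral_prod_right (ν := μ)).measurable

theorem abs_pdFun_le (μ : Measure ℝ) [IsFiniteMeasure μ] (t : ℝ) :
    |pdFun μ t| ≤ μ.real Set.univ := by
  have := norm_integral_le_of_norm_le_const (μ := μ) (f := fun θ => Real.cos (θ * t)) (C := 1)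
    (Filter.Eventually.of_forall (fun θ => by simpa using Real.abs_cos_le_one _))
  simpa [pdFun] using this

section

variable {ι S : Type*} [Fintype ι] [Fintype S]
variable (μ : Measure ℝ) [IsFiniteMeasure μ] (η : S → ι → ℝ) (ν : S → ℝ)

/-- The Gibbs average of the positive definite function, as a function of the pattern. -/
noncomputable def yfun (g : ι → ℝ) : ℝ := ∑ s, ν s * pdFun μ (∑ i, g i * η s i)

theorem measurable_yfun : Measurable (yfun μ η ν) := by
  have := measurable_pdFun μ
  unfold yfun
  fun_prop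

theorem abs_yfun_le (hν : ∀ s, 0 ≤ ν s) (g : ι → ℝ) :
    |yfun μ η ν g| ≤ (∑ s, ν s) * μ.real Set.univ := by
  unfold yfun
  calc |∑ s, ν s * pdFun μ (∑ i, g i * η s i)|
      ≤ ∑ s, |ν s * pdFun μ (∑ i, g i * η s i)| := Finset.abs_sum_le_sum_abs _ _
    _ ≤ ∑ s, ν s * μ.real Set.univ := by
        refine Finset.sum_le_sum (fun s _ => ?_)
        rw [abs_mul, abs_of_nonneg (hν s)]
        exact mul_le_mul_of_nonneg_left (abs_pdFun_le μ _) (hν s)
    _ = (∑ s, ν s) * μ.real Set.univ := by rw [Finset.sum_mul]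

/-- The twisted moments. -/
noncomputable def Jm (m : ι → ℝ) (k : ℕ) (h : ι → ℝ) : ℝ :=
  ∫ g, Real.cos (∑ i, g i * (m i * h i)) * (yfun μ η ν (fun i => m i * g i)) ^ k ∂(stdG ι)

theorem Jm_zero (m h : ι → ℝ) :
    Jm μ η ν m 0 h = Real.exp (-(∑ i, (m i * h i) ^ 2) / 2) := by
  unfold Jm
  simp only [pow_zero, mul_one]
  exact integral_cos_stdG _

theorem abs_Jm_le (hν : ∀ s, 0 ≤ ν s) (m : ι → ℝ) (k : ℕ) (h : ι → ℝ) :
    |Jm μ η ν m k h| ≤ ((∑ s, ν s) * μ.real Set.univ) ^ k := by
  have := norm_integral_le_of_norm_le_const (μ := stdG ι)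
    (f := fun g => Real.cos (∑ i, g i * (m i * h i)) * (yfun μ η ν (fun i => m i * g i)) ^ k)
    (C := ((∑ s, ν s) * μ.real Set.univ) ^ k)
    (Filter.Eventually.of_forall (fun g => by
      rw [Real.norm_eq_abs, abs_mul, abs_pow]
      calc |Real.cos (∑ i, g i * (m i * h i))| * |yfun μ η ν (fun i => m i * g i)| ^ k
          ≤ 1 * ((∑ s, ν s) * μ.real Set.univ) ^ k := by
            apply mul_le_mul (Real.abs_cos_le_one _)
              (pow_le_pow_left₀ (abs_nonneg _) (abs_yfun_le μ η ν hν _) k)
              (by positivity) (by norm_num)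
        _ = _ := one_mul _))
  simpa [Jm] using this

theorem measurable_Jm_line (m : ι → ℝ) (k : ℕ) (h d : ι → ℝ) :
    Measurable (fun θ : ℝ => Jm μ η ν m k (fun i => h i + θ * d i)) := by
  have hy := measurable_yfun μ η ν
  have h1 : StronglyMeasurable (Function.uncurry (fun (θ : ℝ) (g : ι → ℝ) =>
      Real.cos (∑ i, g i * (m i * (h i + θ * d i))) * (yfun μ η ν (fun i => m i * g i)) ^ k)) := by
    apply Measurable.stronglyMeasurable
    unfold Function.uncurry
    fun_prop
  exact (h1.integral_prod_right (ν := stdG ι)).measurable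

theorem Jm_succ (hν : ∀ s, 0 ≤ ν s) (m : ι → ℝ) (k : ℕ) (h : ι → ℝ) :
    Jm μ η ν m (k + 1) h = ∑ s, ν s * ∫ θ, (Jm μ η ν m k (fun i => h i + θ * η s i)
      + Jm μ η ν m k (fun i => h i + (-θ) * η s i)) / 2 ∂μ := by
  have hy := measurable_yfun μ η ν
  set V := (∑ s, ν s) * μ.real Set.univ with hV
  have hV0 : 0 ≤ V := mul_nonneg (Finset.sum_nonneg (fun s _ => hν s)) measureReal_nonneg
  -- the integrand
  let F : S → (ι → ℝ) → ℝ → ℝ := fun s g θ =>
    Real.cos (∑ i, g i * (m i * h i)) * Real.cos (θ * ∑ i, (m i * g i) * η s i)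
      * (yfun μ η ν (fun i => m i * g i)) ^ k
  have hFm : ∀ s, Measurable (Function.uncurry (F s)) := by
    intro s
    unfold Function.uncurry
    simp only [F]
    fun_prop
  have hFb : ∀ s g θ, |F s g θ| ≤ V ^ k := by
    intro s g θ
    simp only [F]
    rw [abs_mul, abs_mul, abs_pow]
    calc |Real.cos (∑ i, g i * (m i * h i))| * |Real.cos (θ * ∑ i, (m i * g i) * η s i)|
          * |yfun μ η ν (fun i => m i * g i)| ^ k
        ≤ 1 * 1 * V ^ k := by
          apply mul_le_mul _ (pow_le_pow_left₀ (abs_nonneg _) (abs_yfun_le μ η ν hν _) k)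
            (by positivity) (by norm_num)
          exact mul_le_mul (Real.abs_cos_le_one _) (Real.abs_cos_le_one _) (abs_nonneg _)
            (by norm_num)
      _ = V ^ k := by ring
  have hFint : ∀ s, Integrable (Function.uncurry (F s)) ((stdG ι).prod μ) := fun s =>
    integrable_of_bdd (hFm s) (V ^ k) (fun x => hFb s x.1 x.2)
  have key : ∀ g : ι → ℝ, Real.cos (∑ i, g i * (m i * h i))
      * (yfun μ η ν (fun i => m i * g i)) ^ (k + 1) = ∑ s, ν s * ∫ θ, F s g θ ∂μ := by
    intro g
    rw [pow_succ]
    conv_lhs => rw [← mul_assoc]; arg 2; unfold yfun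
    rw [Finset.mul_sum]
    refine Finset.sum_congr rfl (fun s _ => ?_)
    unfold pdFun
    rw [mul_left_comm, ← integral_const_mul]
    congr 1
    refine integral_congr_ae (Filter.Eventually.of_forall (fun θ => ?_))
    simp only [F]
    ring
  unfold Jm
  simp_rw [key]
  rw [integral_finsetSum]
  · refine Finset.sum_congr rfl (fun s _ => ?_)
    rw [integral_const_mul]
    congr 1
    rw [integral_integral_swap (hFint s)]
    refine integral_congr_ae (Filter.Eventually.of_forall (fun θ => ?_))
    simp only []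
    have i1 : ∀ d : ι → ℝ, Integrable (fun g : ι → ℝ => Real.cos (∑ i, g i * (m i * d i))
        * (yfun μ η ν (fun i => m i * g i)) ^ k) (stdG ι) := by
      intro d
      refine integrable_of_bdd (by fun_prop) (V ^ k) (fun g => ?_)
      rw [abs_mul, abs_pow]
      calc |Real.cos (∑ i, g i * (m i * d i))| * |yfun μ η ν (fun i => m i * g i)| ^ k
          ≤ 1 * V ^ k := by
            apply mul_le_mul (Real.abs_cos_le_one _)
              (pow_le_pow_left₀ (abs_nonneg _) (abs_yfun_le μ η ν hν _) k)
              (by positivity) (by norm_num)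
        _ = _ := one_mul _
    rw [← integral_add (i1 _) (i1 _), ← integral_div]
    refine integral_congr_ae (Filter.Eventually.of_forall (fun g => ?_))
    simp only [F]
    have e1 : ∑ i, g i * (m i * (h i + θ * η s i))
        = (∑ i, g i * (m i * h i)) + θ * ∑ i, (m i * g i) * η s i := by
      rw [Finset.mul_sum, ← Finset.sum_add_distrib]
      refine Finset.sum_congr rfl (fun i _ => ?_)
      ring
    have e2 : ∑ i, g i * (m i * (h i + (-θ) * η s i))
        = (∑ i, g i * (m i * h i)) - θ * ∑ i, (m i * g i) * η s i := by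
      rw [Finset.mul_sum, ← Finset.sum_sub_distrib]
      refine Finset.sum_congr rfl (fun i _ => ?_)
      ring
    rw [e1, e2, Real.cos_add, Real.cos_sub]
    ring
  · intro s _
    apply Integrable.const_mul
    exact (hFint s).integral_prod_left

end

end Vale.Agent.P157
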