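import Mathlib
import Vale.Agent.P157.Moment

/-! Abstract iterated expectations of log-sum-exp. -/

namespace Vale.Agent.P157

open MeasureTheory ProbabilityTheory

/-- log-sum-exp -/
noncomputable def lse {S : Type*} [Fintype S] (v : S → ℝ) : ℝ := Real.log (∑ s, Real.exp (v s))

theorem measurable_lse {S : Type*} [Fintype S] : Measurable (lse (S := S)) := by
  unfold lse
  fun_prop

theorem lse_shift {S : Type*} [Fintype S] [Nonempty S] (v d : S → ℝ) (C : ℝ)
    (hd : ∀ s, |d s| ≤ C) : |lse (fun s => v s + d s) - lse v| ≤ C := by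
  unfold lse
  have hpos : 0 < ∑ s, Real.exp (v s) :=
    Finset.sum_pos (fun s _ => Real.exp_pos _) Finset.univ_nonempty
  have hpos' : 0 < ∑ s, Real.exp (v s + d s) :=
    Finset.sum_pos (fun s _ => Real.exp_pos _) Finset.univ_nonempty
  have up : ∑ s, Real.exp (v s + d s) ≤ Real.exp C * ∑ s, Real.exp (v s) := by
    rw [Finset.mul_sum]
    refine Finset.sum_le_sum (fun s _ => ?_)
    rw [← Real.exp_add]
    apply Real.exp_le_exp.2
    linarith [(abs_le.1 (hd s)).2]
  have lo : Real.exp (-C) * ∑ s, Real.exp (v s) ≤ ∑ s, Real.exp (v s + d s) := by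
    rw [Finset.mul_sum]
    refine Finset.sum_le_sum (fun s _ => ?_)
    rw [← Real.exp_add]
    apply Real.exp_le_exp.2
    linarith [(abs_le.1 (hd s)).1]
  have up' := Real.log_le_log hpos' up
  have lo' := Real.log_le_log (mul_pos (Real.exp_pos _) hpos) lo
  rw [Real.log_mul (Real.exp_pos _).ne' hpos.ne', Real.log_exp] at up' lo'
  rw [abs_le]
  constructor <;> linarith

section

variable {Ω S T : Type*} [MeasurableSpace Ω] (P : Measure Ω) [IsProbabilityMeasure P]
variable [Fintype S] (φ : T → Ω → S → ℝ)

/-- Iterated expectation of log-sum-exp after adding the random fields listed in the list. -/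
noncomputable def Phi : List T → (S → ℝ) → ℝ
  | [], v => lse v
  | t :: τ, v => ∫ ω, Phi τ (fun s => v s + φ t ω s) ∂P

theorem Phi_nil (v : S → ℝ) : Phi P φ [] v = lse v := rfl

theorem Phi_cons (t : T) (τ : List T) (v : S → ℝ) :
    Phi P φ (t :: τ) v = ∫ ω, Phi P φ τ (fun s => v s + φ t ω s) ∂P := rfl

variable (hφm : ∀ t, Measurable (φ t))

include hφm in
theorem measurable_Phi (τ : List T) : Measurable (Phi P φ τ) := by
  induction τ with
  | nil => exact measurable_lse
  | cons t τ ih =>
    have h1 : Measurable (fun p : (S → ℝ) × Ω => (fun s => p.1 s + φ t p.2 s)) := by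
      apply measurable_pi_lambda
      intro s
      have := hφm t
      exact ((measurable_pi_apply s).comp measurable_fst).add
        ((measurable_pi_apply s).comp (this.comp measurable_snd))
    have h2 : StronglyMeasurable (Function.uncurry
        (fun (v : S → ℝ) (ω : Ω) => Phi P φ τ (fun s => v s + φ t ω s))) :=
      (ih.comp h1).stronglyMeasurable
    exact (h2.integral_prod_right (ν := P)).measurable

variable [Nonempty S] (B : ℝ) (hφb : ∀ t ω s, |φ t ω s| ≤ B)

include hφm hφb in
theorem Phi_shift_and_int (τ : List T) :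
    (∀ (v d : S → ℝ) (C : ℝ), (∀ s, |d s| ≤ C) →
      |Phi P φ τ (fun s => v s + d s) - Phi P φ τ v| ≤ C) := by
  induction τ with
  | nil => exact fun v d C hd => lse_shift v d C hd
  | cons t τ ih =>
    intro v d C hd
    have hint : ∀ v : S → ℝ, Integrable (fun ω => Phi P φ τ (fun s => v s + φ t ω s)) P := by
      intro v
      have h1 : Measurable (fun ω : Ω => (fun s => v s + φ t ω s)) := by
        apply measurable_pi_lambda
        intro s
        exact measurable_const.add ((measurable_pi_apply s).comp (hφm t))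
      refine integrable_of_bdd ((measurable_Phi P φ hφm τ).comp h1) (|Phi P φ τ v| + B)
        (fun ω => ?_)
      have := ih v (φ t ω) B (hφb t ω)
      have h3 := abs_sub_abs_le_abs_sub (Phi P φ τ (fun s => v s + φ t ω s)) (Phi P φ τ v)
      linarith
    rw [Phi_cons, Phi_cons, ← integral_sub (hint _) (hint _)]
    have := norm_integral_le_of_norm_le_const (μ := P)
      (f := fun ω => Phi P φ τ (fun s => v s + d s + φ t ω s) - Phi P φ τ (fun s => v s + φ t ω s))
      (C := C)
      (Filter.Eventually.of_forall (fun ω => by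
        rw [Real.norm_eq_abs]
        have := ih (fun s => v s + φ t ω s) d C hd
        have e : (fun s => v s + d s + φ t ω s) = (fun s => v s + φ t ω s + d s) := by
          funext s; ring
        rw [e]
        exact this))
    simpa using this

include hφm hφb in
theorem Phi_integrable (t : T) (τ : List T) (v : S → ℝ) :
    Integrable (fun ω => Phi P φ τ (fun s => v s + φ t ω s)) P := by
  have h1 : Measurable (fun ω : Ω => (fun s => v s + φ t ω s)) := by
    apply measurable_pi_lambda
    intro s
    exact measurable_const.add ((measurable_pi_apply s).comp (hφm t))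
  refine integrable_of_bdd ((measurable_Phi P φ hφm τ).comp h1) (|Phi P φ τ v| + B)
    (fun ω => ?_)
  have := Phi_shift_and_int P φ hφm B hφb τ v (φ t ω) B (hφb t ω)
  have h3 := abs_sub_abs_le_abs_sub (Phi P φ τ (fun s => v s + φ t ω s)) (Phi P φ τ v)
  linarith

include hφm hφb in
theorem Phi_cons_sub_le (t : T) (τ : List T) (v : S → ℝ) :
    |Phi P φ (t :: τ) v - Phi P φ τ v| ≤ B := by
  have e : Phi P φ (t :: τ) v - Phi P φ τ v
      = ∫ ω, (Phi P φ τ (fun s => v s + φ t ω s) - Phi P φ τ v) ∂P := by
    rw [integral_sub (Phi_integrable P φ hφm B hφb t τ v) (integrable_const _)]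
    simp [Phi_cons]
  rw [e]
  have := norm_integral_le_of_norm_le_const (μ := P)
    (f := fun ω => Phi P φ τ (fun s => v s + φ t ω s) - Phi P φ τ v) (C := B)
    (Filter.Eventually.of_forall (fun ω => by
      rw [Real.norm_eq_abs]
      exact Phi_shift_and_int P φ hφm B hφb τ v (φ t ω) B (hφb t ω)))
  simpa using this

include hφm hφb in
theorem Phi_swap (a b : T) (τ : List T) (v : S → ℝ) :
    Phi P φ (a :: b :: τ) v = Phi P φ (b :: a :: τ) v := by
  simp only [Phi_cons]
  have hm : Measurable (fun p : Ω × Ω => (fun s => v s + φ a p.1 s + φ b p.2 s)) := by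
    apply measurable_pi_lambda
    intro s
    exact (measurable_const.add ((measurable_pi_apply s).comp ((hφm a).comp measurable_fst))).add
      ((measurable_pi_apply s).comp ((hφm b).comp measurable_snd))
  have hint : Integrable (Function.uncurry
      (fun ω ω' => Phi P φ τ (fun s => v s + φ a ω s + φ b ω' s))) (P.prod P) := by
    refine integrable_of_bdd ((measurable_Phi P φ hφm τ).comp hm) (|Phi P φ τ v| + (B + B))
      (fun p => ?_)
    have := Phi_shift_and_int P φ hφm B hφb τ v (fun s => φ a p.1 s + φ b p.2 s) (B + B)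
      (fun s => (abs_add_le _ _).trans (add_le_add (hφb a p.1 s) (hφb b p.2 s)))
    have e : (fun s => v s + (φ a p.1 s + φ b p.2 s)) = (fun s => v s + φ a p.1 s + φ b p.2 s) := by
      funext s; ring
    rw [e] at this
    have h3 := abs_sub_abs_le_abs_sub (Phi P φ τ (fun s => v s + φ a p.1 s + φ b p.2 s))
      (Phi P φ τ v)
    simp only [Function.uncurry]
    linarith
  rw [integral_integral_swap hint]
  refine integral_congr_ae (Filter.Eventually.of_forall (fun ω' => ?_))
  refine integral_congr_ae (Filter.Eventually.of_forall (fun ω => ?_))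
  simp only []
  congr 1
  funext s
  ring

include hφm hφb in
theorem Phi_perm {τ τ' : List T} (h : τ.Perm τ') : ∀ v, Phi P φ τ v = Phi P φ τ' v := by
  induction h with
  | nil => intro v; rfl
  | cons t _ ih =>
    intro v
    simp only [Phi_cons]
    refine integral_congr_ae (Filter.Eventually.of_forall (fun ω => ?_))
    exact ih _
  | swap a b τ => intro v; exact Phi_swap P φ hφm B hφb b a τ v
  | trans _ _ ih1 ih2 => intro v; rw [ih1, ih2]

include hφm hφb in
/-- Replacement inequality propagated through further fields. -/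
theorem Phi_replace (t0 t1 t2 : T) (lam : ℝ) (h0 : 0 ≤ lam) (h1 : lam ≤ 1)
    (base : ∀ v, lam * Phi P φ [t1] v + (1 - lam) * Phi P φ [t2] v ≤ Phi P φ [t0] v)
    (τ : List T) : ∀ v, lam * Phi P φ (t1 :: τ) v + (1 - lam) * Phi P φ (t2 :: τ) v
      ≤ Phi P φ (t0 :: τ) v := by
  induction τ with
  | nil => exact base
  | cons t τ ih =>
    intro v
    rw [Phi_swap P φ hφm B hφb t1 t, Phi_swap P φ hφm B hφb t2 t, Phi_swap P φ hφm B hφb t0 t]
    rw [Phi_cons P φ t (t1 :: τ), Phi_cons P φ t (t2 :: τ), Phi_cons P φ t (t0 :: τ)]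
    have i0 := Phi_integrable P φ hφm B hφb t (t0 :: τ) v
    have i1 := Phi_integrable P φ hφm B hφb t (t1 :: τ) v
    have i2 := Phi_integrable P φ hφm B hφb t (t2 :: τ) v
    rw [← integral_const_mul, ← integral_const_mul,
      ← integral_add (i1.const_mul _) (i2.const_mul _)]
    exact integral_mono ((i1.const_mul _).add (i2.const_mul _)) i0 (fun ω => ih _)

end

end Vale.Agent.P157
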