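import Mathlib
import Vale.Agent.P157.Moment

/-! Concavity in the covariance of the expected logarithm. -/

namespace Vale.Agent.P157

open MeasureTheory ProbabilityTheory

section

variable {ι S : Type*} [Fintype ι] [Fintype S]
variable (μ : Measure ℝ) [IsFiniteMeasure μ] (η : S → ι → ℝ) (ν : S → ℝ)

theorem Jm_convex (hν : ∀ s, 0 ≤ ν s) (lam : ℝ) (h0 : 0 ≤ lam) (h1 : lam ≤ 1)
    (m0 m1 m2 : ι → ℝ) (hm : ∀ i, m0 i ^ 2 = lam * m1 i ^ 2 + (1 - lam) * m2 i ^ 2) :
    ∀ (k : ℕ) (h : ι → ℝ), Jm μ η ν m0 k h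
      ≤ lam * Jm μ η ν m1 k h + (1 - lam) * Jm μ η ν m2 k h := by
  intro k
  induction k with
  | zero =>
    intro h
    rw [Jm_zero, Jm_zero, Jm_zero]
    have e : -(∑ i, (m0 i * h i) ^ 2) / 2 = lam • (-(∑ i, (m1 i * h i) ^ 2) / 2)
        + (1 - lam) • (-(∑ i, (m2 i * h i) ^ 2) / 2) := by
      have : ∑ i, (m0 i * h i) ^ 2 = lam * ∑ i, (m1 i * h i) ^ 2
          + (1 - lam) * ∑ i, (m2 i * h i) ^ 2 := by
        rw [Finset.mul_sum, Finset.mul_sum, ← Finset.sum_add_distrib]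
        refine Finset.sum_congr rfl (fun i _ => ?_)
        rw [mul_pow, hm i]
        ring
      rw [this]
      simp only [smul_eq_mul]
      ring
    rw [e]
    have := convexOn_exp.2 (Set.mem_univ (-(∑ i, (m1 i * h i) ^ 2) / 2))
      (Set.mem_univ (-(∑ i, (m2 i * h i) ^ 2) / 2)) h0 (by linarith : 0 ≤ 1 - lam) (by ring)
    simpa using this
  | succ k ih =>
    intro h
    rw [Jm_succ μ η ν hν, Jm_succ μ η ν hν, Jm_succ μ η ν hν, Finset.mul_sum, Finset.mul_sum,
      ← Finset.sum_add_distrib]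
    refine Finset.sum_le_sum (fun s _ => ?_)
    have hi : ∀ m : ι → ℝ, Integrable (fun θ : ℝ => (Jm μ η ν m k (fun i => h i + θ * η s i)
        + Jm μ η ν m k (fun i => h i + (-θ) * η s i)) / 2) μ := by
      intro m
      have hm1 := measurable_Jm_line μ η ν m k h (η s)
      have hm2 : Measurable (fun θ : ℝ => Jm μ η ν m k (fun i => h i + (-θ) * η s i)) :=
        hm1.comp measurable_neg
      refine integrable_of_bdd (by fun_prop) (((∑ s, ν s) * μ.real Set.univ) ^ k) (fun θ => ?_)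
      have a1 := abs_Jm_le μ η ν hν m k (fun i => h i + θ * η s i)
      have a2 := abs_Jm_le μ η ν hν m k (fun i => h i + (-θ) * η s i)
      rw [abs_le] at a1 a2 ⊢
      constructor <;> linarith [a1.1, a1.2, a2.1, a2.2]
    have : ∫ θ, (Jm μ η ν m0 k (fun i => h i + θ * η s i)
        + Jm μ η ν m0 k (fun i => h i + (-θ) * η s i)) / 2 ∂μ
        ≤ lam * ∫ θ, (Jm μ η ν m1 k (fun i => h i + θ * η s i)
        + Jm μ η ν m1 k (fun i => h i + (-θ) * η s i)) / 2 ∂μ
        + (1 - lam) * ∫ θ, (Jm μ η ν m2 k (fun i => h i + θ * η s i)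
        + Jm μ η ν m2 k (fun i => h i + (-θ) * η s i)) / 2 ∂μ := by
      rw [← integral_const_mul, ← integral_const_mul,
        ← integral_add ((hi m1).const_mul _) ((hi m2).const_mul _)]
      refine integral_mono (hi m0) (((hi m1).const_mul _).add ((hi m2).const_mul _)) (fun θ => ?_)
      have b1 := ih (fun i => h i + θ * η s i)
      have b2 := ih (fun i => h i + (-θ) * η s i)
      simp only []
      linarith
    have := mul_le_mul_of_nonneg_left this (hν s)
    linarith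

theorem moment_convex (hν : ∀ s, 0 ≤ ν s) (lam : ℝ) (h0 : 0 ≤ lam) (h1 : lam ≤ 1)
    (m0 m1 m2 : ι → ℝ) (hm : ∀ i, m0 i ^ 2 = lam * m1 i ^ 2 + (1 - lam) * m2 i ^ 2) (k : ℕ) :
    ∫ g, (yfun μ η ν (fun i => m0 i * g i)) ^ k ∂(stdG ι)
      ≤ lam * ∫ g, (yfun μ η ν (fun i => m1 i * g i)) ^ k ∂(stdG ι)
        + (1 - lam) * ∫ g, (yfun μ η ν (fun i => m2 i * g i)) ^ k ∂(stdG ι) := by
  have := Jm_convex μ η ν hν lam h0 h1 m0 m1 m2 hm k (fun _ => 0)
  simpa [Jm] using this

theorem integrable_ypow (hν : ∀ s, 0 ≤ ν s) (m : ι → ℝ) (k : ℕ) :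
    Integrable (fun g : ι → ℝ => (yfun μ η ν (fun i => m i * g i)) ^ k) (stdG ι) := by
  have hy := measurable_yfun μ η ν
  refine integrable_of_bdd (by fun_prop) (((∑ s, ν s) * μ.real Set.univ) ^ k) (fun g => ?_)
  rw [abs_pow]
  exact pow_le_pow_left₀ (abs_nonneg _) (abs_yfun_le μ η ν hν _) k

theorem abs_log_one_sub_le {V y : ℝ} (hV : V < 1) (hy : |y| ≤ V) (n : ℕ) :
    |(∑ i ∈ Finset.range n, y ^ (i + 1) / (i + 1)) + Real.log (1 - y)| ≤ V ^ (n + 1) / (1 - V) := by
  have h := Real.abs_log_sub_add_sum_range_le (lt_of_le_of_lt hy hV) n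
  refine h.trans ?_
  have h1 : 0 < 1 - V := by linarith
  have h2 : 0 < 1 - |y| := by linarith
  rw [div_le_div_iff₀ h2 h1]
  have h3 : |y| ^ (n + 1) ≤ V ^ (n + 1) := pow_le_pow_left₀ (abs_nonneg _) hy _
  have h4 : 0 ≤ |y| ^ (n + 1) := by positivity
  have h5 : 0 ≤ V ^ (n + 1) := le_trans h4 h3
  nlinarith [abs_nonneg y]

theorem integrable_log_one_sub (hν : ∀ s, 0 ≤ ν s) (hV : (∑ s, ν s) * μ.real Set.univ < 1)
    (m : ι → ℝ) :
    Integrable (fun g : ι → ℝ => Real.log (1 - yfun μ η ν (fun i => m i * g i))) (stdG ι) := by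
  have hy := measurable_yfun μ η ν
  refine integrable_of_bdd (by fun_prop)
    (((∑ s, ν s) * μ.real Set.univ) ^ (0 + 1) / (1 - (∑ s, ν s) * μ.real Set.univ)) (fun g => ?_)
  have := abs_log_one_sub_le hV (abs_yfun_le μ η ν hν (fun i => m i * g i)) 0
  simpa using this

/-- Concavity in the covariance of the expected logarithm. -/
theorem log_concave_cov (hν : ∀ s, 0 ≤ ν s) (hV : (∑ s, ν s) * μ.real Set.univ < 1)
    (lam : ℝ) (h0 : 0 ≤ lam) (h1 : lam ≤ 1)
    (m0 m1 m2 : ι → ℝ) (hm : ∀ i, m0 i ^ 2 = lam * m1 i ^ 2 + (1 - lam) * m2 i ^ 2) :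
    lam * ∫ g, Real.log (1 - yfun μ η ν (fun i => m1 i * g i)) ∂(stdG ι)
      + (1 - lam) * ∫ g, Real.log (1 - yfun μ η ν (fun i => m2 i * g i)) ∂(stdG ι)
      ≤ ∫ g, Real.log (1 - yfun μ η ν (fun i => m0 i * g i)) ∂(stdG ι) := by
  set V := (∑ s, ν s) * μ.real Set.univ with hVdef
  have hV0 : 0 ≤ V := mul_nonneg (Finset.sum_nonneg (fun s _ => hν s)) measureReal_nonneg
  -- partial sums
  let Sn : ℕ → (ι → ℝ) → ℝ := fun n m =>
    ∑ i ∈ Finset.range n, (∫ g, (yfun μ η ν (fun j => m j * g j)) ^ (i + 1) ∂(stdG ι)) / (i + 1)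
  have hclose : ∀ (n : ℕ) (m : ι → ℝ),
      |Sn n m + ∫ g, Real.log (1 - yfun μ η ν (fun i => m i * g i)) ∂(stdG ι)|
        ≤ V ^ (n + 1) / (1 - V) := by
    intro n m
    have e : Sn n m + ∫ g, Real.log (1 - yfun μ η ν (fun i => m i * g i)) ∂(stdG ι)
        = ∫ g, ((∑ i ∈ Finset.range n, (yfun μ η ν (fun j => m j * g j)) ^ (i + 1) / (i + 1))
          + Real.log (1 - yfun μ η ν (fun i => m i * g i))) ∂(stdG ι) := by
      rw [integral_add _ (integrable_log_one_sub μ η ν hν hV m), integral_finsetSum]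
      · simp only [Sn, integral_div]
      · intro i _
        exact (integrable_ypow μ η ν hν m (i + 1)).div_const _
      · apply integrable_finsetSum
        intro i _
        exact (integrable_ypow μ η ν hν m (i + 1)).div_const _
    rw [e]
    have := norm_integral_le_of_norm_le_const (μ := stdG ι)
      (f := fun g => ((∑ i ∈ Finset.range n, (yfun μ η ν (fun j => m j * g j)) ^ (i + 1) / (i + 1))
          + Real.log (1 - yfun μ η ν (fun i => m i * g i))))
      (C := V ^ (n + 1) / (1 - V))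
      (Filter.Eventually.of_forall (fun g => by
        rw [Real.norm_eq_abs]
        exact abs_log_one_sub_le hV (abs_yfun_le μ η ν hν (fun i => m i * g i)) n))
    simpa using this
  have hS : ∀ n, Sn n m0 ≤ lam * Sn n m1 + (1 - lam) * Sn n m2 := by
    intro n
    simp only [Sn]
    rw [Finset.mul_sum, Finset.mul_sum, ← Finset.sum_add_distrib]
    refine Finset.sum_le_sum (fun i _ => ?_)
    have := moment_convex μ η ν hν lam h0 h1 m0 m1 m2 hm (i + 1)
    have hpos : (0 : ℝ) < (i : ℝ) + 1 := by positivity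
    rw [mul_div_assoc', mul_div_assoc', ← add_div]
    exact div_le_div_of_nonneg_right this hpos.le
  have hlim : Filter.Tendsto (fun n : ℕ => 2 * (V ^ (n + 1) / (1 - V))) Filter.atTop (nhds 0) := by
    have h := (tendsto_pow_atTop_nhds_zero_of_lt_one hV0 hV)
    have h2 := (Filter.tendsto_add_atTop_iff_nat 1).2 h
    have h3 := (h2.div_const (1 - V)).const_mul 2
    simpa using h3
  have hall : ∀ n : ℕ, lam * ∫ g, Real.log (1 - yfun μ η ν (fun i => m1 i * g i)) ∂(stdG ι)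
      + (1 - lam) * ∫ g, Real.log (1 - yfun μ η ν (fun i => m2 i * g i)) ∂(stdG ι)
      - ∫ g, Real.log (1 - yfun μ η ν (fun i => m0 i * g i)) ∂(stdG ι)
      ≤ 2 * (V ^ (n + 1) / (1 - V)) := by
    intro n
    have c0 := abs_le.1 (hclose n m0)
    have c1 := abs_le.1 (hclose n m1)
    have c2 := abs_le.1 (hclose n m2)
    have hs := hS n
    have k1 := mul_le_mul_of_nonneg_left c1.2 h0
    have k2 := mul_le_mul_of_nonneg_left c2.2 (by linarith : 0 ≤ 1 - lam)
    nlinarith [c0.1]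
  have := ge_of_tendsto' hlim hall
  linarith

end

end Vale.Agent.P157
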