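import Mathlib
import Vale.Agent.P157.LogConc
import Vale.Agent.P157.Iter

/-! The one-step inequality in log-sum-exp form. -/

namespace Vale.Agent.P157

open MeasureTheory ProbabilityTheory

/-- The log-potential `log (c - W)` with `W` positive definite. -/
noncomputable def logPot (μ : Measure ℝ) (c : ℝ) (t : ℝ) : ℝ := Real.log (c - pdFun μ t)

theorem measurable_logPot (μ : Measure ℝ) [IsFiniteMeasure μ] (c : ℝ) :
    Measurable (logPot μ c) := by
  have := measurable_pdFun μ
  unfold logPot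
  fun_prop

theorem abs_logPot_le (μ : Measure ℝ) [IsFiniteMeasure μ] (c : ℝ) (hc : μ.real Set.univ < c)
    (t : ℝ) : |logPot μ c t| ≤ max |Real.log (c - μ.real Set.univ)| |Real.log (c + μ.real Set.univ)| := by
  have h := abs_le.1 (abs_pdFun_le μ t)
  have h1 : 0 < c - μ.real Set.univ := by linarith
  have h2 : c - μ.real Set.univ ≤ c - pdFun μ t := by linarith [h.2]
  have h3 : c - pdFun μ t ≤ c + μ.real Set.univ := by linarith [h.1]
  have l1 := Real.log_le_log h1 h2
  have l2 := Real.log_le_log (lt_of_lt_of_le h1 h2) h3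
  unfold logPot
  rw [abs_le]
  constructor
  · have := neg_abs_le (Real.log (c - μ.real Set.univ))
    have := le_max_left |Real.log (c - μ.real Set.univ)| |Real.log (c + μ.real Set.univ)|
    linarith
  · have := le_abs_self (Real.log (c + μ.real Set.univ))
    have := le_max_right |Real.log (c - μ.real Set.univ)| |Real.log (c + μ.real Set.univ)|
    linarith

section

variable {ι S : Type*} [Fintype ι] [Fintype S] [Nonempty S]
variable (μ : Measure ℝ) [IsFiniteMeasure μ] (c : ℝ) (hc : μ.real Set.univ < c) (η : S → ι → ℝ)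

include hc in
theorem lse_logPot_eq (v : S → ℝ) (g : ι → ℝ) :
    lse (fun s => v s + logPot μ c (∑ i, g i * η s i))
      = Real.log (c * ∑ s, Real.exp (v s))
        + Real.log (1 - yfun μ η (fun s => Real.exp (v s) / (c * ∑ s, Real.exp (v s))) g) := by
  have hc0 : 0 < c := lt_of_le_of_lt measureReal_nonneg hc
  have hE : 0 < ∑ s, Real.exp (v s) :=
    Finset.sum_pos (fun s _ => Real.exp_pos _) Finset.univ_nonempty
  have hcE : 0 < c * ∑ s, Real.exp (v s) := mul_pos hc0 hE
  set ν : S → ℝ := fun s => Real.exp (v s) / (c * ∑ s, Real.exp (v s)) with hν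
  have hν0 : ∀ s, 0 ≤ ν s := fun s => div_nonneg (Real.exp_pos _).le hcE.le
  have hsum : (∑ s, ν s) = 1 / c := by
    simp only [hν]
    rw [← Finset.sum_div]
    field_simp
  have hy : |yfun μ η ν g| ≤ (∑ s, ν s) * μ.real Set.univ := abs_yfun_le μ η ν hν0 g
  have hV : (∑ s, ν s) * μ.real Set.univ < 1 := by
    rw [hsum, one_div, inv_mul_lt_iff₀ hc0]
    linarith
  have h1y : 0 < 1 - yfun μ η ν g := by
    have := (abs_le.1 hy).2
    linarith
  rw [← Real.log_mul hcE.ne' h1y.ne']
  unfold lse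
  congr 1
  have e1 : ∀ s, Real.exp (v s + logPot μ c (∑ i, g i * η s i))
      = Real.exp (v s) * c - Real.exp (v s) * pdFun μ (∑ i, g i * η s i) := by
    intro s
    have hp : 0 < c - pdFun μ (∑ i, g i * η s i) := by
      have := (abs_le.1 (abs_pdFun_le μ (∑ i, g i * η s i))).2
      linarith
    rw [Real.exp_add, logPot, Real.exp_log hp]
    ring
  simp_rw [e1]
  rw [Finset.sum_sub_distrib, ← Finset.sum_mul]
  unfold yfun
  rw [mul_sub, mul_one]
  congr 1
  · ring
  · rw [Finset.mul_sum (s := Finset.univ) (f := fun s => ν s * pdFun μ (∑ i, g i * η s i))]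
    refine Finset.sum_congr rfl (fun s _ => ?_)
    simp only [hν]
    field_simp

include hc in
/-- One-step inequality. -/
theorem base_ineq (lam : ℝ) (h0 : 0 ≤ lam) (h1 : lam ≤ 1)
    (m0 m1 m2 : ι → ℝ) (hm : ∀ i, m0 i ^ 2 = lam * m1 i ^ 2 + (1 - lam) * m2 i ^ 2)
    (v : S → ℝ) :
    lam * ∫ g, lse (fun s => v s + logPot μ c (∑ i, (m1 i * g i) * η s i)) ∂(stdG ι)
      + (1 - lam) * ∫ g, lse (fun s => v s + logPot μ c (∑ i, (m2 i * g i) * η s i)) ∂(stdG ι)
      ≤ ∫ g, lse (fun s => v s + logPot μ c (∑ i, (m0 i * g i) * η s i)) ∂(stdG ι) := by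
  have hc0 : 0 < c := lt_of_le_of_lt measureReal_nonneg hc
  have hE : 0 < ∑ s, Real.exp (v s) :=
    Finset.sum_pos (fun s _ => Real.exp_pos _) Finset.univ_nonempty
  have hcE : 0 < c * ∑ s, Real.exp (v s) := mul_pos hc0 hE
  set ν : S → ℝ := fun s => Real.exp (v s) / (c * ∑ s, Real.exp (v s)) with hν
  have hν0 : ∀ s, 0 ≤ ν s := fun s => div_nonneg (Real.exp_pos _).le hcE.le
  have hsum : (∑ s, ν s) = 1 / c := by
    simp only [hν]
    rw [← Finset.sum_div]
    field_simp
  have hV : (∑ s, ν s) * μ.real Set.univ < 1 := by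
    rw [hsum, one_div, inv_mul_lt_iff₀ hc0]
    linarith
  have e : ∀ m : ι → ℝ, ∫ g, lse (fun s => v s + logPot μ c (∑ i, (m i * g i) * η s i)) ∂(stdG ι)
      = Real.log (c * ∑ s, Real.exp (v s))
        + ∫ g, Real.log (1 - yfun μ η ν (fun i => m i * g i)) ∂(stdG ι) := by
    intro m
    have : ∀ g : ι → ℝ, lse (fun s => v s + logPot μ c (∑ i, (m i * g i) * η s i))
        = Real.log (c * ∑ s, Real.exp (v s))
          + Real.log (1 - yfun μ η ν (fun i => m i * g i)) :=
      fun g => lse_logPot_eq μ c hc η v (fun i => m i * g i)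
    simp_rw [this]
    rw [integral_add (integrable_const _) (integrable_log_one_sub μ η ν hν0 hV m)]
    simp
  rw [e m0, e m1, e m2]
  have := log_concave_cov μ η ν hν0 hV lam h0 h1 m0 m1 m2 hm
  linarith

end

end Vale.Agent.P157
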