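import Mathlib
import Vale.Agent.P157.Iter

/-! Counting induction: replacing global fields by local ones one at a time. -/

namespace Vale.Agent.P157

open MeasureTheory ProbabilityTheory

theorem lip_nat (F : ℕ → ℝ) (B : ℝ) (hL : ∀ n, |F (n + 1) - F n| ≤ B) (a b : ℕ) :
    |F a - F b| ≤ B * |(a : ℝ) - b| := by
  have key : ∀ (a k : ℕ), |F (a + k) - F a| ≤ B * k := by
    intro a k
    induction k with
    | zero => simp
    | succ k ih =>
      have h1 := hL (a + k)
      have h2 : F (a + (k + 1)) - F a = (F (a + k + 1) - F (a + k)) + (F (a + k) - F a) := by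
        rw [← add_assoc]; ring
      rw [h2]
      refine (abs_add_le _ _).trans ?_
      push_cast
      linarith
  rcases le_total a b with h | h
  · obtain ⟨k, rfl⟩ := Nat.exists_eq_add_of_le h
    have := key a k
    rw [abs_sub_comm]
    have e : |(a : ℝ) - ((a + k : ℕ) : ℝ)| = k := by
      push_cast
      rw [show (a : ℝ) - (a + k) = -(k : ℝ) by ring, abs_neg, abs_of_nonneg (Nat.cast_nonneg k)]
    rw [e]; exact this
  · obtain ⟨k, rfl⟩ := Nat.exists_eq_add_of_le h
    have := key b k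
    have e : |((b + k : ℕ) : ℝ) - (b : ℝ)| = k := by
      push_cast
      rw [show (b : ℝ) + k - b = (k : ℝ) by ring, abs_of_nonneg (Nat.cast_nonneg k)]
    rw [e]; exact this

section

variable {Ω S T : Type*} [MeasurableSpace Ω] (P : Measure Ω) [IsProbabilityMeasure P]
variable [Fintype S] (φ : T → Ω → S → ℝ)

/-- `a` fields of kind `t0`, `b` of kind `t1`, `c` of kind `t2`. -/
noncomputable def Psi (t0 t1 t2 : T) (a b c : ℕ) (v : S → ℝ) : ℝ :=
  Phi P φ (List.replicate a t0 ++ (List.replicate b t1 ++ List.replicate c t2)) v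

variable (hφm : ∀ t, Measurable (φ t)) [Nonempty S] (B : ℝ) (hφb : ∀ t ω s, |φ t ω s| ≤ B)

include hφm hφb in
theorem Psi_step (t0 t1 t2 : T) (lam : ℝ) (h0 : 0 ≤ lam) (h1 : lam ≤ 1)
    (base : ∀ v, lam * Phi P φ [t1] v + (1 - lam) * Phi P φ [t2] v ≤ Phi P φ [t0] v)
    (a b c : ℕ) (v : S → ℝ) :
    lam * Psi P φ t0 t1 t2 a (b + 1) c v + (1 - lam) * Psi P φ t0 t1 t2 a b (c + 1) v
      ≤ Psi P φ t0 t1 t2 (a + 1) b c v := by
  have hr := Phi_replace P φ hφm B hφb t0 t1 t2 lam h0 h1 base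
    (List.replicate a t0 ++ (List.replicate b t1 ++ List.replicate c t2)) v
  have p1 : (List.replicate a t0 ++ (List.replicate (b + 1) t1 ++ List.replicate c t2)).Perm
      (t1 :: (List.replicate a t0 ++ (List.replicate b t1 ++ List.replicate c t2))) := by
    rw [List.replicate_succ, List.cons_append]
    exact List.perm_middle
  have p2 : (List.replicate a t0 ++ (List.replicate b t1 ++ List.replicate (c + 1) t2)).Perm
      (t2 :: (List.replicate a t0 ++ (List.replicate b t1 ++ List.replicate c t2))) := by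
    rw [List.replicate_succ]
    refine (List.Perm.append_left _ List.perm_middle).trans ?_
    exact List.perm_middle
  unfold Psi
  rw [Phi_perm P φ hφm B hφb p1, Phi_perm P φ hφm B hφb p2]
  rw [List.replicate_succ, List.cons_append]
  exact hr

include hφm hφb in
theorem count_bound (t0 t1 t2 : T) (lam : ℝ) (h0 : 0 ≤ lam) (h1 : lam ≤ 1)
    (base : ∀ v, lam * Phi P φ [t1] v + (1 - lam) * Phi P φ [t2] v ≤ Phi P φ [t0] v)
    (F1 F2 : ℕ → ℝ) (v0 : S → ℝ) (hfac : ∀ b c, Psi P φ t0 t1 t2 0 b c v0 = F1 b + F2 c)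
    (hB : 0 ≤ B)
    (hL1 : ∀ n, |F1 (n + 1) - F1 n| ≤ B) (hL2 : ∀ n, |F2 (n + 1) - F2 n| ≤ B)
    (M1 M2 : ℕ) (δ : ℝ) (hδ : 0 < δ) (a : ℕ) : ∀ b c : ℕ,
    F1 M1 + F2 M2 - (B / (2 * δ)) * (((b : ℝ) + a * lam - M1) ^ 2 + a * lam * (1 - lam))
      - (B / (2 * δ)) * (((c : ℝ) + a * (1 - lam) - M2) ^ 2 + a * lam * (1 - lam)) - B * δ
      ≤ Psi P φ t0 t1 t2 a b c v0 := by
  induction a with
  | zero =>
    intro b c
    rw [hfac]
    have l1 := lip_nat F1 B hL1 b M1
    have l2 := lip_nat F2 B hL2 c M2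
    have q : ∀ t : ℝ, B * |t| ≤ (B / (2 * δ)) * t ^ 2 + B * δ / 2 := by
      intro t
      have h : 0 ≤ (|t| - δ) ^ 2 := sq_nonneg _
      have h' : 2 * δ * |t| ≤ t ^ 2 + δ ^ 2 := by
        have : |t| ^ 2 = t ^ 2 := sq_abs t
        nlinarith
      have e : (B / (2 * δ)) * t ^ 2 + B * δ / 2 = (B / (2 * δ)) * (t ^ 2 + δ ^ 2) := by
        field_simp
      rw [e]
      have e2 : B * |t| = (B / (2 * δ)) * (2 * δ * |t|) := by
        field_simp
      rw [e2]
      exact mul_le_mul_of_nonneg_left h' (by positivity)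
    have q1 := q ((b : ℝ) - M1)
    have q2 := q ((c : ℝ) - M2)
    have a1 := (abs_le.1 l1).1
    have a2 := (abs_le.1 l2).1
    simp only [Nat.cast_zero, zero_mul, add_zero]
    linarith
  | succ a ih =>
    intro b c
    have s := Psi_step P φ hφm B hφb t0 t1 t2 lam h0 h1 base a b c v0
    have i1 := mul_le_mul_of_nonneg_left (ih (b + 1) c) h0
    have i2 := mul_le_mul_of_nonneg_left (ih b (c + 1)) (by linarith : 0 ≤ 1 - lam)
    refine le_trans (le_of_eq ?_) (le_trans (add_le_add i1 i2) s)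
    push_cast
    ring

end

section factor

variable {Ω S₁ S₂ T : Type*} [MeasurableSpace Ω] (P : Measure Ω) [IsProbabilityMeasure P]
variable [Fintype S₁] [Fintype S₂] [Nonempty S₁] [Nonempty S₂]

theorem lse_prod (v₁ : S₁ → ℝ) (v₂ : S₂ → ℝ) :
    lse (fun s : S₁ × S₂ => v₁ s.1 + v₂ s.2) = lse v₁ + lse v₂ := by
  unfold lse
  have hpos1 : 0 < ∑ s, Real.exp (v₁ s) :=
    Finset.sum_pos (fun s _ => Real.exp_pos _) Finset.univ_nonempty
  have hpos2 : 0 < ∑ s, Real.exp (v₂ s) :=
    Finset.sum_pos (fun s _ => Real.exp_pos _) Finset.univ_nonempty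
  rw [← Real.log_mul hpos1.ne' hpos2.ne', Finset.sum_mul_sum, Fintype.sum_prod_type]
  congr 1
  refine Finset.sum_congr rfl (fun s _ => Finset.sum_congr rfl (fun s' _ => ?_))
  rw [Real.exp_add]

variable (φ : T → Ω → S₁ × S₂ → ℝ) (ψ₁ : Ω → S₁ → ℝ) (ψ₂ : Ω → S₂ → ℝ)
variable (B : ℝ) (hm1 : Measurable ψ₁) (hm2 : Measurable ψ₂)
  (hb1 : ∀ ω s, |ψ₁ ω s| ≤ B) (hb2 : ∀ ω s, |ψ₂ ω s| ≤ B)

include hm1 hm2 hb1 hb2 in
theorem Phi_factor (t1 t2 : T) (h1 : ∀ ω s, φ t1 ω s = ψ₁ ω s.1) (h2 : ∀ ω s, φ t2 ω s = ψ₂ ω s.2)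
    (b c : ℕ) : ∀ (v₁ : S₁ → ℝ) (v₂ : S₂ → ℝ),
    Phi P φ (List.replicate b t1 ++ List.replicate c t2) (fun s => v₁ s.1 + v₂ s.2)
      = Phi P (fun _ : Unit => ψ₁) (List.replicate b ()) v₁
        + Phi P (fun _ : Unit => ψ₂) (List.replicate c ()) v₂ := by
  induction b with
  | zero =>
    induction c with
    | zero =>
      intro v₁ v₂
      simp only [List.replicate_zero, List.append_nil, Phi_nil]
      exact lse_prod v₁ v₂
    | succ c ih =>
      intro v₁ v₂
      simp only [List.replicate_zero, List.nil_append] at ih ⊢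
      rw [List.replicate_succ, List.replicate_succ, Phi_cons, Phi_cons]
      have e : ∀ ω, Phi P φ (List.replicate c t2) (fun s => v₁ s.1 + v₂ s.2 + φ t2 ω s)
          = Phi P (fun _ : Unit => ψ₁) [] v₁
            + Phi P (fun _ : Unit => ψ₂) (List.replicate c ()) (fun s => v₂ s + ψ₂ ω s) := by
        intro ω
        rw [← ih v₁ (fun s => v₂ s + ψ₂ ω s)]
        congr 1
        funext s
        rw [h2]; ring
      simp_rw [e]
      rw [integral_add (integrable_const _)
        (Phi_integrable P (fun _ : Unit => ψ₂) (fun _ => hm2) B (fun _ => hb2) () _ v₂)]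
      simp
  | succ b ih =>
    intro v₁ v₂
    rw [List.replicate_succ, List.replicate_succ, List.cons_append, Phi_cons, Phi_cons]
    have e : ∀ ω, Phi P φ (List.replicate b t1 ++ List.replicate c t2)
        (fun s => v₁ s.1 + v₂ s.2 + φ t1 ω s)
        = Phi P (fun _ : Unit => ψ₁) (List.replicate b ()) (fun s => v₁ s + ψ₁ ω s)
          + Phi P (fun _ : Unit => ψ₂) (List.replicate c ()) v₂ := by
      intro ω
      rw [← ih (fun s => v₁ s + ψ₁ ω s) v₂]
      congr 1
      funext s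
      rw [h1]; ring
    simp_rw [e]
    rw [integral_add
      (Phi_integrable P (fun _ : Unit => ψ₁) (fun _ => hm1) B (fun _ => hb1) () _ v₁)
      (integrable_const _)]
    simp

end factor

section transfer

variable {Ω Ω' S S' T : Type*} [MeasurableSpace Ω] [MeasurableSpace Ω']
  (P : Measure Ω) [IsProbabilityMeasure P] (P' : Measure Ω') [IsProbabilityMeasure P']
  [Fintype S] [Fintype S']

theorem Phi_transfer (φ : T → Ω → S → ℝ) (φ' : T → Ω' → S' → ℝ) (hφm' : ∀ t, Measurable (φ' t))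
    (π : Ω → Ω') (hπ : MeasurePreserving π P P') (e : S ≃ S')
    (h : ∀ t ω s, φ t ω s = φ' t (π ω) (e s)) (τ : List T) :
    ∀ v' : S' → ℝ, Phi P φ τ (fun s => v' (e s)) = Phi P' φ' τ v' := by
  induction τ with
  | nil =>
    intro v'
    simp only [Phi_nil, lse]
    congr 1
    exact e.sum_comp (fun s' => Real.exp (v' s'))
  | cons t τ ih =>
    intro v'
    rw [Phi_cons, Phi_cons]
    have e1 : ∀ ω, Phi P φ τ (fun s => v' (e s) + φ t ω s)
        = Phi P' φ' τ (fun s' => v' s' + φ' t (π ω) s') := by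
      intro ω
      rw [← ih]
      congr 1
      funext s
      rw [h]
    simp_rw [e1]
    have hmeas : Measurable (fun ω' : Ω' => Phi P' φ' τ (fun s' => v' s' + φ' t ω' s')) := by
      have h1 : Measurable (fun ω' : Ω' => (fun s' => v' s' + φ' t ω' s')) := by
        apply measurable_pi_lambda
        intro s
        exact measurable_const.add ((measurable_pi_apply s).comp (hφm' t))
      exact (measurable_Phi P' φ' hφm' τ).comp h1
    have := integral_map (μ := P) hπ.measurable.aemeasurable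
      (f := fun ω' : Ω' => Phi P' φ' τ (fun s' => v' s' + φ' t ω' s'))
      hmeas.aestronglyMeasurable
    rw [hπ.map_eq] at this
    exact this.symm

end transfer

end Vale.Agent.P157
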