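import Mathlib

/-! Definitions for the Gaussian Ising perceptron. -/

namespace Vale.Agent.P157

open MeasureTheory ProbabilityTheory

/-- The pressure `p_N(f)` of the Ising perceptron with `M` patterns `g a` in `ℝ^N`:
`(1/N) log` of the average over the cube `{-1,1}^N` (a spin is a Boolean `x i`, read as `1` or
`-1`) of `exp (∑_a f (g a · x / √N))`. -/
noncomputable def isingPressure (f : ℝ → ℝ) (N M : ℕ) (g : Fin M → Fin N → ℝ) : ℝ :=
  (1 / (N : ℝ)) * Real.log ((1 / (2 : ℝ) ^ N) * ∑ x : Fin N → Bool,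
    Real.exp (∑ a : Fin M, f ((∑ i : Fin N, g a i * (if x i then (1 : ℝ) else -1)) / Real.sqrt N)))

/-- The expected pressure `E p_N(f)` with `M = ⌊α N⌋` independent standard Gaussian patterns. -/
noncomputable def meanIsingPressure (α : ℝ) (f : ℝ → ℝ) (N : ℕ) : ℝ :=
  ∫ g : Fin ⌊α * N⌋₊ → Fin N → ℝ, isingPressure f N ⌊α * N⌋₊ g
    ∂(Measure.pi fun _ : Fin ⌊α * N⌋₊ => Measure.pi fun _ : Fin N => gaussianReal 0 1)

end Vale.Agent.P157
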