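import Mathlib

/-! A Fekete-type lemma with a square-root error term. -/

namespace Vale.Agent.P157

open Filter Topology

theorem sqrt_harm_le (m n : ℝ) (hm : 0 < m) (hn : 0 < n) :
    Real.sqrt (m * n / (m + n)) ≤ 2 * (Real.sqrt m + Real.sqrt n - Real.sqrt (m + n)) := by
  set p := Real.sqrt m with hp
  set q := Real.sqrt n with hq
  set r := Real.sqrt (m + n) with hr
  have hp0 : 0 < p := Real.sqrt_pos.2 hm
  have hq0 : 0 < q := Real.sqrt_pos.2 hn
  have hr0 : 0 < r := Real.sqrt_pos.2 (by linarith)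
  have hp2 : p ^ 2 = m := Real.sq_sqrt hm.le
  have hq2 : q ^ 2 = n := Real.sq_sqrt hn.le
  have hr2 : r ^ 2 = m + n := Real.sq_sqrt (by linarith)
  have e : Real.sqrt (m * n / (m + n)) = p * q / r := by
    rw [Real.sqrt_div (by positivity), Real.sqrt_mul hm.le]
  rw [e, div_le_iff₀ hr0]
  have hr2' : r ^ 2 = p ^ 2 + q ^ 2 := by rw [hr2, hp2, hq2]
  have key : 2 * p ^ 2 + 2 * q ^ 2 + p * q ≤ 2 * r * (p + q) := by
    have h1 : (2 * p ^ 2 + 2 * q ^ 2 + p * q) ^ 2 ≤ (2 * r * (p + q)) ^ 2 := by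
      have : (2 * r * (p + q)) ^ 2 = 4 * (p ^ 2 + q ^ 2) * (p + q) ^ 2 := by
        rw [mul_pow, mul_pow, hr2']; ring
      rw [this]
      nlinarith [mul_pos hp0 hq0, sq_nonneg (p - q), mul_pos (mul_pos hp0 hq0) (mul_pos hp0 hq0)]
    exact (pow_le_pow_iff_left₀ (by positivity) (by positivity) (by norm_num)).1 h1
  nlinarith

theorem tendsto_of_near_superadditive (a : ℕ → ℝ) (C1 C2 Cb : ℝ) (hC1 : 0 ≤ C1) (hC2 : 0 ≤ C2)
    (h0 : a 0 = 0)
    (hsup : ∀ m n : ℕ, 1 ≤ m → 1 ≤ n →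
      a m + a n - (C1 + C2 * Real.sqrt ((m : ℝ) * n / ((m : ℝ) + n))) ≤ a (m + n))
    (hub : ∀ n : ℕ, a n ≤ Cb * n) :
    ∃ L : ℝ, Tendsto (fun n : ℕ => a n / n) atTop (𝓝 L) := by
  let u : ℕ → ℝ := fun n => -a n + 2 * C2 * Real.sqrt n + C1
  have hsub : Subadditive u := by
    intro m n
    simp only [u]
    rcases Nat.eq_zero_or_pos m with rfl | hm
    · simp [h0]; linarith
    rcases Nat.eq_zero_or_pos n with rfl | hn
    · simp [h0]; linarith
    have h1 := hsup m n hm hn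
    have hm' : (0 : ℝ) < m := by exact_mod_cast hm
    have hn' : (0 : ℝ) < n := by exact_mod_cast hn
    have h2 := sqrt_harm_le m n hm' hn'
    have h3 := mul_le_mul_of_nonneg_left h2 hC2
    push_cast
    nlinarith
  have hbdd : BddBelow (Set.range fun n : ℕ => u n / n) := by
    refine ⟨-|Cb|, ?_⟩
    rintro _ ⟨n, rfl⟩
    simp only []
    rcases Nat.eq_zero_or_pos n with rfl | hn
    · simp
    have hn' : (0 : ℝ) < n := by exact_mod_cast hn
    rw [le_div_iff₀ hn']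
    simp only [u]
    have h1 := hub n
    have h2 : Cb * n ≤ |Cb| * n := mul_le_mul_of_nonneg_right (le_abs_self _) hn'.le
    have h3 : 0 ≤ 2 * C2 * Real.sqrt n := by positivity
    linarith
  have hlim := hsub.tendsto_lim hbdd
  refine ⟨-hsub.lim, ?_⟩
  have t1 : Tendsto (fun n : ℕ => Real.sqrt n / n) atTop (𝓝 0) := by
    have : (fun n : ℕ => Real.sqrt n / n) = fun n : ℕ => (Real.sqrt n)⁻¹ := by
      funext n
      exact Real.sqrt_div_self
    rw [this]
    exact tendsto_inv_atTop_zero.comp (Real.tendsto_sqrt_atTop.comp tendsto_natCast_atTop_atTop)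
  have t2 : Tendsto (fun n : ℕ => C1 / (n : ℝ)) atTop (𝓝 0) :=
    tendsto_const_div_atTop_nhds_zero_nat C1
  have t3 := ((hlim.neg).add (t1.const_mul (2 * C2))).add t2
  simp only [mul_zero, add_zero] at t3
  refine t3.congr (fun n => ?_)
  simp only [u]
  ring

end Vale.Agent.P157
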