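import Mathlib
import Vale.Agent.P157.Iter

/-! Iterated expectations versus the integral over the product measure. -/

namespace Vale.Agent.P157

open MeasureTheory ProbabilityTheory

section

variable {Ω S : Type*} [MeasurableSpace Ω] (P : Measure Ω) [IsProbabilityMeasure P]
variable [Fintype S] [Nonempty S] (φ : Ω → S → ℝ) (hφm : Measurable φ) (B : ℝ)
  (hφb : ∀ ω s, |φ ω s| ≤ B)

include hφm hφb in
theorem integral_pi_eq_Phi (m : ℕ) : ∀ v : S → ℝ,
    ∫ ω : Fin m → Ω, lse (fun s => v s + ∑ a, φ (ω a) s) ∂(Measure.pi fun _ : Fin m => P)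
      = Phi P (fun _ : Unit => φ) (List.replicate m ()) v := by
  induction m with
  | zero =>
    intro v
    simp [Phi_nil]
  | succ m ih =>
    intro v
    rw [List.replicate_succ, Phi_cons]
    have mp := measurePreserving_piFinSuccAbove (fun _ : Fin (m + 1) => P) 0
    let G : Ω × (Fin m → Ω) → ℝ := fun p => lse (fun s => v s + φ p.1 s + ∑ a, φ (p.2 a) s)
    have hG : ∀ ω : Fin (m + 1) → Ω, lse (fun s => v s + ∑ a, φ (ω a) s)
        = G (MeasurableEquiv.piFinSuccAbove (fun _ : Fin (m + 1) => Ω) 0 ω) := by
      intro ω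
      simp only [G]
      congr 1
      funext s
      rw [Fin.sum_univ_succ]
      simp [MeasurableEquiv.piFinSuccAbove_apply, add_assoc, Fin.tail]
    simp_rw [hG]
    rw [mp.integral_comp' G]
    have hGm : Measurable G := by
      apply measurable_lse.comp
      apply measurable_pi_lambda
      intro s
      refine (measurable_const.add
        ((measurable_pi_apply s).comp (hφm.comp measurable_fst))).add ?_
      refine Finset.measurable_sum _ (fun a _ => ?_)
      exact (measurable_pi_apply s).comp
        (hφm.comp ((measurable_pi_apply a).comp measurable_snd))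
    have hGi : Integrable G (P.prod (Measure.pi fun _ : Fin m => P)) := by
      refine integrable_of_bdd hGm (|lse v| + (B + m * B)) (fun p => ?_)
      have h1 := lse_shift v (fun s => φ p.1 s + ∑ a, φ (p.2 a) s) (B + m * B) (fun s => by
        refine (abs_add_le _ _).trans (add_le_add (hφb _ _) ?_)
        refine (Finset.abs_sum_le_sum_abs _ _).trans ?_
        calc ∑ a : Fin m, |φ (p.2 a) s| ≤ ∑ _a : Fin m, B :=
              Finset.sum_le_sum (fun a _ => hφb _ _)
          _ = m * B := by simp)
      have e : (fun s => v s + (φ p.1 s + ∑ a, φ (p.2 a) s))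
          = (fun s => v s + φ p.1 s + ∑ a, φ (p.2 a) s) := by
        funext s; ring
      rw [e] at h1
      have h3 := abs_sub_abs_le_abs_sub (G p) (lse v)
      simp only [G] at h3 ⊢
      linarith
    rw [integral_prod _ hGi]
    refine integral_congr_ae (Filter.Eventually.of_forall (fun ω0 => ?_))
    exact ih (fun s => v s + φ ω0 s)

end

end Vale.Agent.P157

namespace Vale.Agent.P157

open MeasureTheory ProbabilityTheory

theorem integrable_lse_pi {Ω S : Type*} [MeasurableSpace Ω] (P : Measure Ω) [IsProbabilityMeasure P]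
    [Fintype S] [Nonempty S] (φ : Ω → S → ℝ) (hφm : Measurable φ) (B : ℝ)
    (hφb : ∀ ω s, |φ ω s| ≤ B) (m : ℕ) (v : S → ℝ) :
    Integrable (fun ω : Fin m → Ω => lse (fun s => v s + ∑ a, φ (ω a) s))
      (Measure.pi fun _ : Fin m => P) := by
  have hGm : Measurable (fun ω : Fin m → Ω => lse (fun s => v s + ∑ a, φ (ω a) s)) := by
    apply measurable_lse.comp
    apply measurable_pi_lambda
    intro s
    refine measurable_const.add ?_
    refine Finset.measurable_sum _ (fun a _ => ?_)
    exact (measurable_pi_apply s).comp (hφm.comp (measurable_pi_apply a))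
  refine integrable_of_bdd hGm (|lse v| + m * B) (fun p => ?_)
  have h1 := lse_shift v (fun s => ∑ a, φ (p a) s) (m * B) (fun s => by
    refine (Finset.abs_sum_le_sum_abs _ _).trans ?_
    calc ∑ a : Fin m, |φ (p a) s| ≤ ∑ _a : Fin m, B :=
          Finset.sum_le_sum (fun a _ => hφb _ _)
      _ = m * B := by simp)
  have h3 := abs_sub_abs_le_abs_sub (lse (fun s => v s + ∑ a, φ (p a) s)) (lse v)
  linarith

end Vale.Agent.P157
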