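import Mathlib
import Vale.Agent.P157.Base
import Vale.Agent.P157.Count

/-! The Ising perceptron: near superadditivity. -/

namespace Vale.Agent.P157

open MeasureTheory ProbabilityTheory

/-- sign of a Boolean spin -/
def sgn (b : Bool) : ℝ := if b then 1 else -1

/-- the log-weight contributed by one pattern `g` to the configuration `x` -/
noncomputable def fld (ι : Type*) [Fintype ι] (f : ℝ → ℝ) (g : ι → ℝ) (x : ι → Bool) : ℝ :=
  f ((∑ i, g i * sgn (x i)) / Real.sqrt (Fintype.card ι))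

theorem measurable_fld (ι : Type*) [Fintype ι] (f : ℝ → ℝ) (hf : Measurable f) :
    Measurable (fld ι f) := by
  apply measurable_pi_lambda
  intro x
  unfold fld
  fun_prop

/-- expected log partition function (unnormalised) with `m` patterns -/
noncomputable def Aseq (ι : Type*) [Fintype ι] [DecidableEq ι] (f : ℝ → ℝ) (m : ℕ) : ℝ :=
  Phi (stdG ι) (fun _ : Unit => fld ι f) (List.replicate m ()) (fun _ => 0)

theorem Phi_map {Ω S T T' : Type*} [MeasurableSpace Ω] (P : Measure Ω) [IsProbabilityMeasure P]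
    [Fintype S]
    (r : T → T') (φ' : T' → Ω → S → ℝ) (τ : List T) :
    ∀ v, Phi P (fun t => φ' (r t)) τ v = Phi P φ' (τ.map r) v := by
  induction τ with
  | nil => intro v; rfl
  | cons t τ ih =>
    intro v
    simp only [List.map_cons]
    rw [Phi_cons, Phi_cons]
    refine integral_congr_ae (Filter.Eventually.of_forall (fun ω => ?_))
    exact ih _

theorem Aseq_congr {ι ι' : Type*} [Fintype ι] [Fintype ι'] [DecidableEq ι] [DecidableEq ι']
    (e : ι ≃ ι') (f : ℝ → ℝ)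
    (hf : Measurable f) (m : ℕ) : Aseq ι f m = Aseq ι' f m := by
  unfold Aseq
  have hπ := measurePreserving_piCongrLeft (α := fun _ : ι' => ℝ)
    (fun _ : ι' => gaussianReal 0 1) e
  have := Phi_transfer (stdG ι) (stdG ι') (fun _ : Unit => fld ι f) (fun _ : Unit => fld ι' f)
    (fun _ => measurable_fld ι' f hf) _ hπ (e.arrowCongr (Equiv.refl Bool)) ?_
    (List.replicate m ()) (fun _ => 0)
  · exact this
  · intro _ g x
    unfold fld
    rw [Fintype.card_congr e]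
    congr 2
    rw [← e.sum_comp]
    refine Finset.sum_congr rfl (fun i _ => ?_)
    rw [MeasurableEquiv.coe_piCongrLeft, Equiv.piCongrLeft_apply_apply]
    simp [Equiv.arrowCongr]

section big

variable (ι₁ ι₂ : Type*) [Fintype ι₁] [Fintype ι₂]

/-- rescaled configuration vectors -/
noncomputable def etaBig (s : (ι₁ → Bool) × (ι₂ → Bool)) : ι₁ ⊕ ι₂ → ℝ :=
  Sum.elim (fun i => sgn (s.1 i) / Real.sqrt (Fintype.card ι₁))
    (fun j => sgn (s.2 j) / Real.sqrt (Fintype.card ι₂))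

/-- multipliers: global, local one, local two -/
noncomputable def mult (lam : ℝ) (t : Fin 3) : ι₁ ⊕ ι₂ → ℝ :=
  if t = 0 then Sum.elim (fun _ => Real.sqrt lam) (fun _ => Real.sqrt (1 - lam))
  else if t = 1 then Sum.elim (fun _ => 1) (fun _ => 0)
  else Sum.elim (fun _ => 0) (fun _ => 1)

/-- the three kinds of fields -/
noncomputable def phiBig (f : ℝ → ℝ) (lam : ℝ) (t : Fin 3) (g : ι₁ ⊕ ι₂ → ℝ)
    (s : (ι₁ → Bool) × (ι₂ → Bool)) : ℝ :=
  f (∑ k, (mult ι₁ ι₂ lam t k * g k) * etaBig ι₁ ι₂ s k)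

theorem measurable_phiBig (f : ℝ → ℝ) (hf : Measurable f) (lam : ℝ) (t : Fin 3) :
    Measurable (phiBig ι₁ ι₂ f lam t) := by
  apply measurable_pi_lambda
  intro x
  unfold phiBig
  fun_prop

theorem phiBig_one (f : ℝ → ℝ) (lam : ℝ) (g : ι₁ ⊕ ι₂ → ℝ) (s : (ι₁ → Bool) × (ι₂ → Bool)) :
    phiBig ι₁ ι₂ f lam 1 g s = fld ι₁ f (fun i => g (Sum.inl i)) s.1 := by
  unfold phiBig fld mult etaBig
  congr 1
  rw [Fintype.sum_sum_type]
  simp [Finset.sum_div, mul_div_assoc]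

theorem phiBig_two (f : ℝ → ℝ) (lam : ℝ) (g : ι₁ ⊕ ι₂ → ℝ) (s : (ι₁ → Bool) × (ι₂ → Bool)) :
    phiBig ι₁ ι₂ f lam 2 g s = fld ι₂ f (fun i => g (Sum.inr i)) s.2 := by
  unfold phiBig fld mult etaBig
  congr 1
  rw [Fintype.sum_sum_type]
  simp [Finset.sum_div, mul_div_assoc]

theorem phiBig_zero [Nonempty ι₁] [Nonempty ι₂] (f : ℝ → ℝ) (g : ι₁ ⊕ ι₂ → ℝ)
    (s : (ι₁ → Bool) × (ι₂ → Bool)) :
    phiBig ι₁ ι₂ f ((Fintype.card ι₁ : ℝ) / ((Fintype.card ι₁ : ℝ) + Fintype.card ι₂)) 0 g s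
      = fld (ι₁ ⊕ ι₂) f g (Sum.elim s.1 s.2) := by
  have hN1 : (0 : ℝ) < Fintype.card ι₁ := by exact_mod_cast Fintype.card_pos
  have hN2 : (0 : ℝ) < Fintype.card ι₂ := by exact_mod_cast Fintype.card_pos
  set N1 : ℝ := (Fintype.card ι₁ : ℝ) with hN1def
  set N2 : ℝ := (Fintype.card ι₂ : ℝ) with hN2def
  have e2 : 1 - N1 / (N1 + N2) = N2 / (N1 + N2) := by
    field_simp; ring
  unfold phiBig fld mult etaBig
  congr 1
  rw [Fintype.sum_sum_type, Fintype.sum_sum_type, Fintype.card_sum]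
  push_cast
  rw [← hN1def, ← hN2def, e2, Real.sqrt_div hN1.le, Real.sqrt_div hN2.le, add_div,
    Finset.sum_div, Finset.sum_div]
  have s1 : Real.sqrt N1 ≠ 0 := (Real.sqrt_pos.2 hN1).ne'
  have s2 : Real.sqrt N2 ≠ 0 := (Real.sqrt_pos.2 hN2).ne'
  have s3 : Real.sqrt (N1 + N2) ≠ 0 := (Real.sqrt_pos.2 (by linarith)).ne'
  congr 1
  · refine Finset.sum_congr rfl (fun i _ => ?_)
    simp only [if_true, Sum.elim_inl]
    field_simp
  · refine Finset.sum_congr rfl (fun i _ => ?_)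
    simp only [if_true, Sum.elim_inr]
    field_simp

theorem mult_sq (lam : ℝ) (h0 : 0 ≤ lam) (h1 : lam ≤ 1) (k : ι₁ ⊕ ι₂) :
    mult ι₁ ι₂ lam 0 k ^ 2 = lam * mult ι₁ ι₂ lam 1 k ^ 2 + (1 - lam) * mult ι₁ ι₂ lam 2 k ^ 2 := by
  unfold mult
  rcases k with i | j
  · simp [Real.sq_sqrt h0]
  · simp [Real.sq_sqrt (by linarith : 0 ≤ 1 - lam)]

theorem measurePreserving_inl :
    MeasurePreserving (fun (g : ι₁ ⊕ ι₂ → ℝ) (i : ι₁) => g (Sum.inl i)) (stdG (ι₁ ⊕ ι₂)) (stdG ι₁) :=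
  (measurePreserving_fst (μ := stdG ι₁) (ν := stdG ι₂)).comp
    (measurePreserving_sumPiEquivProdPi (fun _ : ι₁ ⊕ ι₂ => gaussianReal 0 1))

theorem measurePreserving_inr :
    MeasurePreserving (fun (g : ι₁ ⊕ ι₂ → ℝ) (i : ι₂) => g (Sum.inr i)) (stdG (ι₁ ⊕ ι₂)) (stdG ι₂) :=
  (measurePreserving_snd (μ := stdG ι₁) (ν := stdG ι₂)).comp
    (measurePreserving_sumPiEquivProdPi (fun _ : ι₁ ⊕ ι₂ => gaussianReal 0 1))

end big

end Vale.Agent.P157
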