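import Mathlib
import Vale.Agent.P157.Model

/-! Near superadditivity of the expected log partition function. -/

namespace Vale.Agent.P157

open MeasureTheory ProbabilityTheory

/-- uniform bound of the log-potential -/
noncomputable def bnd (μ : Measure ℝ) (c : ℝ) : ℝ :=
  max |Real.log (c - μ.real Set.univ)| |Real.log (c + μ.real Set.univ)|

theorem bnd_nonneg (μ : Measure ℝ) (c : ℝ) : 0 ≤ bnd μ c :=
  le_trans (abs_nonneg _) (le_max_left _ _)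

theorem abs_fld_le (ι : Type*) [Fintype ι] (μ : Measure ℝ) [IsFiniteMeasure μ] (c : ℝ)
    (hc : μ.real Set.univ < c) (g : ι → ℝ) (x : ι → Bool) :
    |fld ι (logPot μ c) g x| ≤ bnd μ c := abs_logPot_le μ c hc _

theorem Aseq_succ_sub_le (ι : Type*) [Fintype ι] [DecidableEq ι] (μ : Measure ℝ)
    [IsFiniteMeasure μ] (c : ℝ) (hc : μ.real Set.univ < c) (n : ℕ) :
    |Aseq ι (logPot μ c) (n + 1) - Aseq ι (logPot μ c) n| ≤ bnd μ c := by
  unfold Aseq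
  rw [List.replicate_succ]
  exact Phi_cons_sub_le (stdG ι) (fun _ : Unit => fld ι (logPot μ c))
    (fun _ => measurable_fld ι _ (measurable_logPot μ c)) (bnd μ c)
    (fun _ g x => abs_fld_le ι μ c hc g x) () _ _

theorem superadd_types (ι₁ ι₂ : Type*) [Fintype ι₁] [Fintype ι₂] [DecidableEq ι₁] [DecidableEq ι₂]
    [Nonempty ι₁] [Nonempty ι₂] (μ : Measure ℝ) [IsFiniteMeasure μ] (c : ℝ)
    (hc : μ.real Set.univ < c) (M M1 M2 : ℕ) (δ : ℝ) (hδ : 0 < δ) (lam : ℝ)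
    (hlam : lam = (Fintype.card ι₁ : ℝ) / ((Fintype.card ι₁ : ℝ) + Fintype.card ι₂)) :
    Aseq ι₁ (logPot μ c) M1 + Aseq ι₂ (logPot μ c) M2
      - (bnd μ c / (2 * δ)) * (((M : ℝ) * lam - M1) ^ 2 + M * lam * (1 - lam))
      - (bnd μ c / (2 * δ)) * (((M : ℝ) * (1 - lam) - M2) ^ 2 + M * lam * (1 - lam))
      - bnd μ c * δ ≤ Aseq (ι₁ ⊕ ι₂) (logPot μ c) M := by
  have hN1 : (0 : ℝ) < Fintype.card ι₁ := by exact_mod_cast Fintype.card_pos
  have hN2 : (0 : ℝ) < Fintype.card ι₂ := by exact_mod_cast Fintype.card_pos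
  have h0 : 0 ≤ lam := by rw [hlam]; positivity
  have h1 : lam ≤ 1 := by
    rw [hlam, div_le_one (by positivity)]
    linarith
  set f := logPot μ c with hf
  have hfm : Measurable f := measurable_logPot μ c
  set B := bnd μ c with hB
  have hφm := measurable_phiBig ι₁ ι₂ f hfm lam
  have hφb : ∀ (t : Fin 3) (g : ι₁ ⊕ ι₂ → ℝ) (s : (ι₁ → Bool) × (ι₂ → Bool)),
      |phiBig ι₁ ι₂ f lam t g s| ≤ B := fun t g s => abs_logPot_le μ c hc _
  have base : ∀ v, lam * Phi (stdG (ι₁ ⊕ ι₂)) (phiBig ι₁ ι₂ f lam) [1] v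
      + (1 - lam) * Phi (stdG (ι₁ ⊕ ι₂)) (phiBig ι₁ ι₂ f lam) [2] v
      ≤ Phi (stdG (ι₁ ⊕ ι₂)) (phiBig ι₁ ι₂ f lam) [0] v := by
    intro v
    simp only [Phi_cons, Phi_nil]
    exact base_ineq μ c hc (etaBig ι₁ ι₂) lam h0 h1 (mult ι₁ ι₂ lam 0) (mult ι₁ ι₂ lam 1)
      (mult ι₁ ι₂ lam 2) (mult_sq ι₁ ι₂ lam h0 h1) v
  have hfac : ∀ b c' : ℕ, Psi (stdG (ι₁ ⊕ ι₂)) (phiBig ι₁ ι₂ f lam) 0 1 2 0 b c' (fun _ => 0)
      = Aseq ι₁ f b + Aseq ι₂ f c' := by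
    intro b c'
    unfold Psi
    rw [List.replicate_zero, List.nil_append]
    have hfa := Phi_factor (stdG (ι₁ ⊕ ι₂)) (phiBig ι₁ ι₂ f lam)
      (fun g => fld ι₁ f (fun i => g (Sum.inl i))) (fun g => fld ι₂ f (fun i => g (Sum.inr i))) B
      ((measurable_fld ι₁ f hfm).comp (measurePreserving_inl ι₁ ι₂).measurable)
      ((measurable_fld ι₂ f hfm).comp (measurePreserving_inr ι₁ ι₂).measurable)
      (fun g x => abs_fld_le ι₁ μ c hc _ x) (fun g x => abs_fld_le ι₂ μ c hc _ x) 1 2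
      (fun g s => phiBig_one ι₁ ι₂ f lam g s) (fun g s => phiBig_two ι₁ ι₂ f lam g s) b c'
      (fun _ => 0) (fun _ => 0)
    simp only [add_zero] at hfa
    rw [hfa]
    congr 1
    · exact Phi_transfer (stdG (ι₁ ⊕ ι₂)) (stdG ι₁)
        (fun _ : Unit => fun g => fld ι₁ f (fun i => g (Sum.inl i))) (fun _ : Unit => fld ι₁ f)
        (fun _ => measurable_fld ι₁ f hfm) _ (measurePreserving_inl ι₁ ι₂) (Equiv.refl _)
        (fun _ _ _ => rfl) (List.replicate b ()) (fun _ => 0)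
    · exact Phi_transfer (stdG (ι₁ ⊕ ι₂)) (stdG ι₂)
        (fun _ : Unit => fun g => fld ι₂ f (fun i => g (Sum.inr i))) (fun _ : Unit => fld ι₂ f)
        (fun _ => measurable_fld ι₂ f hfm) _ (measurePreserving_inr ι₁ ι₂) (Equiv.refl _)
        (fun _ _ _ => rfl) (List.replicate c' ()) (fun _ => 0)
  have hglob : Psi (stdG (ι₁ ⊕ ι₂)) (phiBig ι₁ ι₂ f lam) 0 1 2 M 0 0 (fun _ => 0)
      = Aseq (ι₁ ⊕ ι₂) f M := by
    unfold Psi Aseq
    rw [List.replicate_zero, List.replicate_zero, List.append_nil, List.append_nil]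
    have hm := Phi_map (stdG (ι₁ ⊕ ι₂)) (fun _ : Unit => (0 : Fin 3)) (phiBig ι₁ ι₂ f lam)
      (List.replicate M ()) (fun _ => 0)
    rw [List.map_replicate] at hm
    rw [← hm]
    exact Phi_transfer (stdG (ι₁ ⊕ ι₂)) (stdG (ι₁ ⊕ ι₂))
      (fun _ : Unit => phiBig ι₁ ι₂ f lam 0) (fun _ : Unit => fld (ι₁ ⊕ ι₂) f)
      (fun _ => measurable_fld (ι₁ ⊕ ι₂) f hfm) id (MeasurePreserving.id _)
      (Equiv.sumArrowEquivProdArrow ι₁ ι₂ Bool).symm
      (fun _ g s => by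
        rw [hlam]
        exact phiBig_zero ι₁ ι₂ f g s) (List.replicate M ()) (fun _ => 0)
  have key := count_bound (stdG (ι₁ ⊕ ι₂)) (phiBig ι₁ ι₂ f lam) hφm B hφb 0 1 2 lam h0 h1 base
    (Aseq ι₁ f) (Aseq ι₂ f) (fun _ => 0) hfac (bnd_nonneg μ c)
    (Aseq_succ_sub_le ι₁ μ c hc) (Aseq_succ_sub_le ι₂ μ c hc) M1 M2 δ hδ M 0 0
  rw [hglob] at key
  simpa using key

end Vale.Agent.P157
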