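import Mathlib
import Vale.Agent.P157.Defs
import Vale.Agent.P157.Super
import Vale.Agent.P157.ProdInt
import Vale.Agent.P157.Limit

/-! Existence of the limit of the expected pressure. -/

namespace Vale.Agent.P157

open MeasureTheory ProbabilityTheory Filter Topology

theorem Aseq_zero (N : ℕ) (f : ℝ → ℝ) : Aseq (Fin N) f 0 = N * Real.log 2 := by
  unfold Aseq
  simp [Phi_nil, lse]

theorem meanIsingPressure_eq (α : ℝ) (μ : Measure ℝ) [IsFiniteMeasure μ] (c : ℝ)
    (hc : μ.real Set.univ < c) (N : ℕ) :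
    meanIsingPressure α (logPot μ c) N
      = (Aseq (Fin N) (logPot μ c) ⌊α * N⌋₊ - N * Real.log 2) / N := by
  unfold meanIsingPressure
  set M := ⌊α * N⌋₊ with hM
  set f := logPot μ c with hf
  have hfm : Measurable f := measurable_logPot μ c
  have e : ∀ g : Fin M → Fin N → ℝ, isingPressure f N M g
      = (1 / (N : ℝ)) * (lse (fun x : Fin N → Bool => 0 + ∑ a, fld (Fin N) f (g a) x)
        - N * Real.log 2) := by
    intro g
    unfold isingPressure lse
    congr 1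
    have hpos : 0 < ∑ x : Fin N → Bool, Real.exp (0 + ∑ a, fld (Fin N) f (g a) x) :=
      Finset.sum_pos (fun s _ => Real.exp_pos _) Finset.univ_nonempty
    have e2 : ∑ x : Fin N → Bool, Real.exp (∑ a : Fin M,
        f ((∑ i : Fin N, g a i * (if x i then (1 : ℝ) else -1)) / Real.sqrt N))
        = ∑ x : Fin N → Bool, Real.exp (0 + ∑ a, fld (Fin N) f (g a) x) := by
      refine Finset.sum_congr rfl (fun x _ => ?_)
      rw [zero_add]
      simp only [fld, sgn, Fintype.card_fin]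
    rw [e2, Real.log_mul (by positivity) hpos.ne', one_div, Real.log_inv, Real.log_pow]
    ring
  simp_rw [e]
  rw [integral_const_mul, integral_sub
    (integrable_lse_pi (stdG (Fin N)) (fld (Fin N) f) (measurable_fld (Fin N) f hfm) (bnd μ c)
      (fun g x => abs_fld_le (Fin N) μ c hc g x) M (fun _ => 0)) (integrable_const _),
    integral_pi_eq_Phi (stdG (Fin N)) (fld (Fin N) f) (measurable_fld (Fin N) f hfm) (bnd μ c)
      (fun g x => abs_fld_le (Fin N) μ c hc g x) M (fun _ => 0)]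
  simp only [integral_const, probReal_univ, smul_eq_mul, one_mul]
  unfold Aseq
  ring

theorem sqrt_one_add_le (x : ℝ) (hx : 0 ≤ x) : Real.sqrt (1 + x) ≤ 1 + Real.sqrt x := by
  rw [Real.sqrt_le_left (by positivity)]
  have := Real.sq_sqrt hx
  nlinarith [Real.sqrt_nonneg x]

theorem err_bound (B α m n M M1 M2 lam h δ : ℝ) (hB0 : 0 ≤ B) (hα : 0 < α) (hm' : 0 < m)
    (hn' : 0 < n) (fM1 : M ≤ α * (m + n)) (fM2 : α * (m + n) < M + 1)
    (f11 : M1 ≤ α * m) (f12 : α * m < M1 + 1) (f21 : M2 ≤ α * n) (f22 : α * n < M2 + 1)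
    (hlam : lam = m / (m + n)) (hh : h = m * n / (m + n)) (hδ : δ = Real.sqrt (1 + α * h)) :
    (B / (2 * δ)) * ((M * lam - M1) ^ 2 + M * lam * (1 - lam))
      + (B / (2 * δ)) * ((M * (1 - lam) - M2) ^ 2 + M * lam * (1 - lam)) + B * δ
      ≤ 2 * B + 2 * B * Real.sqrt α * Real.sqrt h := by
  have hh0 : 0 ≤ h := by rw [hh]; positivity
  have hD0 : 0 < 1 + α * h := by positivity
  have hδ0 : 0 < δ := by rw [hδ]; exact Real.sqrt_pos.2 hD0
  have hl0 : 0 < lam := by rw [hlam]; positivity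
  have hl1 : 1 - lam = n / (m + n) := by
    rw [hlam]; field_simp; ring
  have hl1' : 0 < 1 - lam := by rw [hl1]; positivity
  have hlm : (m + n) * lam = m := by rw [hlam]; field_simp
  have hln : (m + n) * (1 - lam) = n := by rw [hl1]; field_simp
  have x1u : M * lam - M1 ≤ 1 := by
    have : M * lam ≤ α * m := by
      calc M * lam ≤ (α * (m + n)) * lam := mul_le_mul_of_nonneg_right fM1 hl0.le
        _ = α * m := by rw [mul_assoc, hlm]
    linarith
  have x1l : -1 ≤ M * lam - M1 := by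
    have : α * m - lam ≤ M * lam := by
      have h1 : (α * (m + n) - 1) * lam ≤ M * lam :=
        mul_le_mul_of_nonneg_right (by linarith) hl0.le
      have h2 : (α * (m + n) - 1) * lam = α * m - lam := by
        rw [sub_mul, mul_assoc, hlm, one_mul]
      linarith
    linarith
  have x2u : M * (1 - lam) - M2 ≤ 1 := by
    have : M * (1 - lam) ≤ α * n := by
      calc M * (1 - lam) ≤ (α * (m + n)) * (1 - lam) :=
            mul_le_mul_of_nonneg_right fM1 hl1'.le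
        _ = α * n := by rw [mul_assoc, hln]
    linarith
  have x2l : -1 ≤ M * (1 - lam) - M2 := by
    have : α * n - (1 - lam) ≤ M * (1 - lam) := by
      have h1 : (α * (m + n) - 1) * (1 - lam) ≤ M * (1 - lam) :=
        mul_le_mul_of_nonneg_right (by linarith) hl1'.le
      have h2 : (α * (m + n) - 1) * (1 - lam) = α * n - (1 - lam) := by
        rw [sub_mul, mul_assoc, hln, one_mul]
      linarith
    linarith
  have s1 : (M * lam - M1) ^ 2 ≤ 1 := by
    rw [sq_le_one_iff_abs_le_one, abs_le]; exact ⟨x1l, x1u⟩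
  have s2 : (M * (1 - lam) - M2) ^ 2 ≤ 1 := by
    rw [sq_le_one_iff_abs_le_one, abs_le]; exact ⟨x2l, x2u⟩
  have s3 : M * lam * (1 - lam) ≤ α * h := by
    have e : α * h = (α * (m + n)) * lam * (1 - lam) := by
      rw [mul_assoc (α * (m + n)), mul_assoc α, ← mul_assoc (m + n), hlm, hl1, hh]
      ring
    rw [e]
    exact mul_le_mul_of_nonneg_right (mul_le_mul_of_nonneg_right fM1 hl0.le) hl1'.le
  have hδ2 : δ ^ 2 = 1 + α * h := by rw [hδ]; exact Real.sq_sqrt hD0.le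
  have c0 : 0 ≤ B / (2 * δ) := by positivity
  have t1 := mul_le_mul_of_nonneg_left (add_le_add s1 s3) c0
  have t2 := mul_le_mul_of_nonneg_left (add_le_add s2 s3) c0
  have t3 : B / (2 * δ) * (1 + α * h) = B * δ / 2 := by
    rw [← hδ2]
    field_simp
  have t4 : δ ≤ 1 + Real.sqrt α * Real.sqrt h := by
    rw [hδ, ← Real.sqrt_mul hα.le]
    exact sqrt_one_add_le _ (by positivity)
  have t5 : B * δ ≤ B + B * Real.sqrt α * Real.sqrt h := by
    calc B * δ ≤ B * (1 + Real.sqrt α * Real.sqrt h) := mul_le_mul_of_nonneg_left t4 hB0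
      _ = _ := by ring
  rw [t3] at t1 t2
  linarith

theorem near_superadd (α : ℝ) (hα : 0 < α) (μ : Measure ℝ) [IsFiniteMeasure μ] (c : ℝ)
    (hc : μ.real Set.univ < c) (m n : ℕ) (hm : 1 ≤ m) (hn : 1 ≤ n) :
    Aseq (Fin m) (logPot μ c) ⌊α * m⌋₊ + Aseq (Fin n) (logPot μ c) ⌊α * n⌋₊
      - (2 * bnd μ c + 2 * bnd μ c * Real.sqrt α * Real.sqrt ((m : ℝ) * n / ((m : ℝ) + n)))
      ≤ Aseq (Fin (m + n)) (logPot μ c) ⌊α * ((m + n : ℕ) : ℝ)⌋₊ := by
  have : Nonempty (Fin m) := ⟨⟨0, hm⟩⟩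
  have : Nonempty (Fin n) := ⟨⟨0, hn⟩⟩
  have hm' : (0 : ℝ) < m := by exact_mod_cast hm
  have hn' : (0 : ℝ) < n := by exact_mod_cast hn
  have hD0 : 0 < 1 + α * ((m : ℝ) * n / ((m : ℝ) + n)) := by positivity
  have key := superadd_types (Fin m) (Fin n) μ c hc ⌊α * ((m + n : ℕ) : ℝ)⌋₊ ⌊α * (m : ℝ)⌋₊
    ⌊α * (n : ℝ)⌋₊ (Real.sqrt (1 + α * ((m : ℝ) * n / ((m : ℝ) + n)))) (Real.sqrt_pos.2 hD0)
    ((m : ℝ) / ((m : ℝ) + n)) (by simp)
  rw [Aseq_congr finSumFinEquiv (logPot μ c) (measurable_logPot μ c)] at key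
  have fM1 : ((⌊α * ((m + n : ℕ) : ℝ)⌋₊ : ℕ) : ℝ) ≤ α * ((m : ℝ) + n) := by
    have := Nat.floor_le (a := α * ((m + n : ℕ) : ℝ)) (by positivity)
    push_cast at this ⊢
    exact this
  have fM2 : α * ((m : ℝ) + n) < ((⌊α * ((m + n : ℕ) : ℝ)⌋₊ : ℕ) : ℝ) + 1 := by
    have := Nat.lt_floor_add_one (α * ((m + n : ℕ) : ℝ))
    push_cast at this ⊢
    exact this
  have eb := err_bound (bnd μ c) α m n (⌊α * ((m + n : ℕ) : ℝ)⌋₊ : ℕ) (⌊α * (m : ℝ)⌋₊ : ℕ)
    (⌊α * (n : ℝ)⌋₊ : ℕ) ((m : ℝ) / ((m : ℝ) + n)) ((m : ℝ) * n / ((m : ℝ) + n))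
    (Real.sqrt (1 + α * ((m : ℝ) * n / ((m : ℝ) + n)))) (bnd_nonneg μ c) hα hm' hn' fM1 fM2
    (Nat.floor_le (by positivity)) (Nat.lt_floor_add_one _)
    (Nat.floor_le (by positivity)) (Nat.lt_floor_add_one _) rfl rfl rfl
  linarith

theorem tendsto_meanIsingPressure (α : ℝ) (hα : 0 < α) (μ : Measure ℝ) [IsFiniteMeasure μ] (c : ℝ)
    (hc : μ.real Set.univ < c) :
    ∃ L : ℝ, Tendsto (fun N : ℕ => meanIsingPressure α (logPot μ c) N) atTop (𝓝 L) := by
  set B := bnd μ c with hB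
  have hB0 : 0 ≤ B := bnd_nonneg μ c
  let a : ℕ → ℝ := fun N => Aseq (Fin N) (logPot μ c) ⌊α * N⌋₊ - N * Real.log 2
  have h := tendsto_of_near_superadditive a (2 * B) (2 * B * Real.sqrt α) (B * α)
    (by positivity) (by positivity) ?_ ?_ ?_
  · obtain ⟨L, hL⟩ := h
    refine ⟨L, hL.congr (fun N => ?_)⟩
    rw [meanIsingPressure_eq α μ c hc N]
  · simp only [a]
    simp [Aseq_zero]
  · intro m n hm hn
    have := near_superadd α hα μ c hc m n hm hn
    simp only [a]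
    push_cast at this ⊢
    linarith
  · intro n
    simp only [a]
    have h1 := lip_nat (Aseq (Fin n) (logPot μ c)) B (Aseq_succ_sub_le (Fin n) μ c hc) ⌊α * n⌋₊ 0
    rw [Aseq_zero] at h1
    have h2 := (abs_le.1 h1).2
    have h3 : ((⌊α * n⌋₊ : ℕ) : ℝ) ≤ α * n := Nat.floor_le (by positivity)
    have h4 : |((⌊α * n⌋₊ : ℕ) : ℝ) - ((0 : ℕ) : ℝ)| = ((⌊α * n⌋₊ : ℕ) : ℝ) := by
      simp
    rw [h4] at h2
    have h5 := mul_le_mul_of_nonneg_left h3 hB0
    linarith

end Vale.Agent.P157
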