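import Mathlib
import Vale.Agent.P157.Defs
import Vale.Agent.P157.Main

/-!
# The limit of the pressure as a supremum of finite-volume quantities

The Fekete-type lemma with its one-sided bound, and the resulting finite-`N` bound
`E p_N ≤ L + 4 B √α / √N + 2 B / N`.
-/

namespace Vale.Agent.P157

open MeasureTheory ProbabilityTheory Filter Topology

theorem tendsto_and_le_of_near_superadditive (a : ℕ → ℝ) (C1 C2 Cb : ℝ) (hC1 : 0 ≤ C1)
    (hC2 : 0 ≤ C2) (h0 : a 0 = 0)
    (hsup : ∀ m n : ℕ, 1 ≤ m → 1 ≤ n →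
      a m + a n - (C1 + C2 * Real.sqrt ((m : ℝ) * n / ((m : ℝ) + n))) ≤ a (m + n))
    (hub : ∀ n : ℕ, a n ≤ Cb * n) :
    ∃ L : ℝ, Tendsto (fun n : ℕ => a n / n) atTop (𝓝 L) ∧
      ∀ n : ℕ, 1 ≤ n → a n / n ≤ L + 2 * C2 / Real.sqrt n + C1 / n := by
  let u : ℕ → ℝ := fun n => -a n + 2 * C2 * Real.sqrt n + C1
  have hsub : Subadditive u := by
    intro m n
    simp only [u]
    rcases Nat.eq_zero_or_pos m with rfl | hm
    · simp [h0]; linarith
    rcases Nat.eq_zero_or_pos n with rfl | hn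
    · simp [h0]; linarith
    have h1 := hsup m n hm hn
    have hm' : (0 : ℝ) < m := by exact_mod_cast hm
    have hn' : (0 : ℝ) < n := by exact_mod_cast hn
    have h2 := sqrt_harm_le m n hm' hn'
    have h3 := mul_le_mul_of_nonneg_left h2 hC2
    push_cast
    nlinarith
  have hbdd : BddBelow (Set.range fun n : ℕ => u n / n) := by
    refine ⟨-|Cb|, ?_⟩
    rintro _ ⟨n, rfl⟩
    simp only []
    rcases Nat.eq_zero_or_pos n with rfl | hn
    · simp
    have hn' : (0 : ℝ) < n := by exact_mod_cast hn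
    rw [le_div_iff₀ hn']
    simp only [u]
    have h1 := hub n
    have h2 : Cb * n ≤ |Cb| * n := mul_le_mul_of_nonneg_right (le_abs_self _) hn'.le
    have h3 : 0 ≤ 2 * C2 * Real.sqrt n := by positivity
    linarith
  have hlim := hsub.tendsto_lim hbdd
  refine ⟨-hsub.lim, ?_, ?_⟩
  · have t1 : Tendsto (fun n : ℕ => Real.sqrt n / n) atTop (𝓝 0) := by
      have : (fun n : ℕ => Real.sqrt n / n) = fun n : ℕ => (Real.sqrt n)⁻¹ := by
        funext n
        exact Real.sqrt_div_self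
      rw [this]
      exact tendsto_inv_atTop_zero.comp
        (Real.tendsto_sqrt_atTop.comp tendsto_natCast_atTop_atTop)
    have t2 : Tendsto (fun n : ℕ => C1 / (n : ℝ)) atTop (𝓝 0) :=
      tendsto_const_div_atTop_nhds_zero_nat C1
    have t3 := ((hlim.neg).add (t1.const_mul (2 * C2))).add t2
    simp only [mul_zero, add_zero] at t3
    refine t3.congr (fun n => ?_)
    simp only [u]
    ring
  · intro n hn
    have h1 : hsub.lim ≤ u n / n := hsub.lim_le_div hbdd (by omega)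
    have h2 : u n / n = -(a n / n) + 2 * C2 * (Real.sqrt n / n) + C1 / n := by
      simp only [u]
      ring
    have h3 : Real.sqrt (n : ℝ) / n = (Real.sqrt n)⁻¹ := Real.sqrt_div_self
    rw [h2, h3] at h1
    rw [div_eq_mul_inv (2 * C2)]
    linarith

theorem tendsto_meanIsingPressure_rate (α : ℝ) (hα : 0 < α) (μ : Measure ℝ) [IsFiniteMeasure μ]
    (c : ℝ) (hc : μ.real Set.univ < c) :
    ∃ L : ℝ, Tendsto (fun N : ℕ => meanIsingPressure α (logPot μ c) N) atTop (𝓝 L) ∧
      ∀ N : ℕ, 1 ≤ N → meanIsingPressure α (logPot μ c) N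
        ≤ L + 2 * (2 * bnd μ c * Real.sqrt α) / Real.sqrt N + 2 * bnd μ c / N := by
  set B := bnd μ c with hB
  have hB0 : 0 ≤ B := bnd_nonneg μ c
  let a : ℕ → ℝ := fun N => Aseq (Fin N) (logPot μ c) ⌊α * N⌋₊ - N * Real.log 2
  have h := tendsto_and_le_of_near_superadditive a (2 * B) (2 * B * Real.sqrt α) (B * α)
    (by positivity) (by positivity) ?_ ?_ ?_
  · obtain ⟨L, hL, hL2⟩ := h
    refine ⟨L, hL.congr (fun N => ?_), fun N hN => ?_⟩
    · rw [meanIsingPressure_eq α μ c hc N]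
    · rw [meanIsingPressure_eq α μ c hc N]
      exact hL2 N hN
  · simp only [a]
    simp [Aseq_zero]
  · intro m n hm hn
    have := near_superadd α hα μ c hc m n hm hn
    simp only [a]
    push_cast at this ⊢
    linarith
  · intro n
    simp only [a]
    have h1 := lip_nat (Aseq (Fin n) (logPot μ c)) B (Aseq_succ_sub_le (Fin n) μ c hc) ⌊α * n⌋₊ 0
    rw [Aseq_zero] at h1
    have h2 := (abs_le.1 h1).2
    have h3 : ((⌊α * n⌋₊ : ℕ) : ℝ) ≤ α * n := Nat.floor_le (by positivity)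
    have h4 : |((⌊α * n⌋₊ : ℕ) : ℝ) - ((0 : ℕ) : ℝ)| = ((⌊α * n⌋₊ : ℕ) : ℝ) := by
      simp
    rw [h4] at h2
    have h5 := mul_le_mul_of_nonneg_left h3 hB0
    linarith

end Vale.Agent.P157
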